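import Vale.Agent.Lib.P333.WordLemma

/-!
# The periodic sequence of a cycle of strings

Let `f` be a map on the index set, `s i` strings and `d i` the advance from `s i` to `s (f i)`: the
letters of `s i` from position `d i` on are the first letters of `s (f i)`.  Along a closed orbit of
`f` the strings are windows of one periodic sequence `u`, whose period is the total advance.
-/

namespace Vale.Agent.Lib.P333.Cycle

open Vale.Agent.Lib.P333.WordLemma

variable {α ι : Type*}

/-- The position of `f^[t] i0` along the orbit: the sum of the advances before it. -/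
def T (f : ι → ι) (d : ι → ℕ) (i0 : ι) (t : ℕ) : ℕ := ∑ r ∈ Finset.range t, d (f^[r] i0)

@[simp] lemma T_zero (f : ι → ι) (d : ι → ℕ) (i0 : ι) : T f d i0 0 = 0 := by simp [T]

lemma T_succ (f : ι → ι) (d : ι → ℕ) (i0 : ι) (t : ℕ) :
    T f d i0 (t + 1) = T f d i0 t + d (f^[t] i0) := Finset.sum_range_succ _ _

lemma T_strictMono (f : ι → ι) (d : ι → ℕ) (i0 : ι) (hd : ∀ i, 0 < d i) :
    StrictMono (T f d i0) :=
  strictMono_nat_of_lt_succ (fun t => by
    rw [T_succ]
    have := hd (f^[t] i0)
    omega)

lemma iterate_period {f : ι → ι} {i0 : ι} {m : ℕ} (hfm : f^[m] i0 = i0) (t : ℕ) :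
    f^[m + t] i0 = f^[t] i0 := by
  rw [Nat.add_comm, Function.iterate_add_apply, hfm]

lemma T_add_period (f : ι → ι) (d : ι → ℕ) {i0 : ι} {m : ℕ} (hfm : f^[m] i0 = i0) (t : ℕ) :
    T f d i0 (m + t) = T f d i0 m + T f d i0 t := by
  unfold T
  rw [Finset.sum_range_add]
  congr 1
  apply Finset.sum_congr rfl
  intro r _
  rw [iterate_period hfm]

/-- Every position lies in exactly one block. -/
lemma cover (f : ι → ι) (d : ι → ℕ) (i0 : ι) (hd : ∀ i, 0 < d i) (x : ℕ) :
    ∃ t, T f d i0 t ≤ x ∧ x < T f d i0 (t + 1) := by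
  have hmono := T_strictMono f d i0 hd
  have hex : ∃ t, x < T f d i0 (t + 1) := ⟨x, by
    have := hmono.le_apply (x := x + 1)
    omega⟩
  classical
  refine ⟨Nat.find hex, ?_, Nat.find_spec hex⟩
  rcases Nat.eq_zero_or_pos (Nat.find hex) with h0 | hpos
  · rw [h0]
    simp
  · have h1 := Nat.find_min hex (m := Nat.find hex - 1) (by omega)
    have h2 : Nat.find hex - 1 + 1 = Nat.find hex := by omega
    rw [h2] at h1
    omega

lemma window_getElem? (u : ℕ → α) (x k n : ℕ) (h : n < k) :
    (window u x k)[n]? = some (u (x + n)) := by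
  simp [window, h]

lemma window_append (u : ℕ → α) (x a b : ℕ) :
    window u x a ++ window u (x + a) b = window u x (a + b) := by
  unfold window
  rw [List.range_add, List.map_append, List.map_map]
  congr 1
  apply List.map_congr_left
  intro t _
  simp [Function.comp, Nat.add_assoc]

lemma window_infix (u : ℕ → α) {x0 K x L : ℕ} (h1 : x0 ≤ x) (h2 : x + L ≤ x0 + K) :
    window u x L <:+: window u x0 K := by
  refine ⟨window u x0 (x - x0), window u (x + L) (x0 + K - (x + L)), ?_⟩
  have e1 : x0 + (x - x0) = x := by omega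
  have h3 := window_append u x0 (x - x0) L
  rw [e1] at h3
  rw [h3]
  have h4 := window_append u x0 (x - x0 + L) (x0 + K - (x + L))
  have e2 : x0 + (x - x0 + L) = x + L := by omega
  rw [e2] at h4
  rw [h4]
  congr 1
  omega

/-- **The sequence of a closed orbit.** -/
theorem exists_seq (s : ι → List α) (f : ι → ι) (d : ι → ℕ) (i0 : ι) (m : ℕ)
    (hd1 : ∀ i, 0 < d i) (hd2 : ∀ i, d i ≤ (s i).length)
    (hov : ∀ i j, d i ≤ j → j < (s i).length → (s i)[j]? = (s (f i))[j - d i]?)
    (hfm : f^[m] i0 = i0) :
    ∃ u : ℕ → α,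
      (∀ t, s (f^[t] i0) = window u (T f d i0 t) (s (f^[t] i0)).length) ∧
      (∀ n, u (n + T f d i0 m) = u n) := by
  have hmono := T_strictMono f d i0 hd1
  choose idx hi1 hi2 using cover f d i0 hd1
  have huniq : ∀ t y, T f d i0 t ≤ y → y < T f d i0 (t + 1) → idx y = t := by
    intro t y h1 h2
    have h3 : t < idx y + 1 := hmono.lt_iff_lt.mp (lt_of_le_of_lt h1 (hi2 y))
    have h4 : idx y < t + 1 := hmono.lt_iff_lt.mp (lt_of_le_of_lt (hi1 y) h2)
    omega
  let u0 : ℕ → Option α := fun y => (s (f^[idx y] i0))[y - T f d i0 (idx y)]?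
  have key : ∀ j t, j < (s (f^[t] i0)).length →
      (s (f^[t] i0))[j]? = u0 (T f d i0 t + j) := by
    intro j
    induction j using Nat.strong_induction_on with
    | _ j ih =>
      intro t hj
      by_cases hjd : j < d (f^[t] i0)
      · have h1 : idx (T f d i0 t + j) = t :=
          huniq t _ (by omega) (by rw [T_succ]; omega)
        simp only [u0, h1, Nat.add_sub_cancel_left]
      · push Not at hjd
        have h2 := hov (f^[t] i0) j hjd hj
        rw [← Function.iterate_succ_apply' f t i0] at h2
        have hlen : j - d (f^[t] i0) < (s (f^[t + 1] i0)).length := by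
          by_contra hcon
          push Not at hcon
          rw [List.getElem?_eq_none hcon] at h2
          rw [List.getElem?_eq_getElem hj] at h2
          simp at h2
        have h3 := ih (j - d (f^[t] i0)) (by have := hd1 (f^[t] i0); omega) (t + 1) hlen
        rw [h2, h3, T_succ]
        congr 1
        omega
  have ha0 : 0 < (s i0).length := lt_of_lt_of_le (hd1 i0) (hd2 i0)
  let u : ℕ → α := fun y => (u0 y).getD ((s i0)[0]'ha0)
  have hsome : ∀ y, u0 y = some (u y) := by
    intro y
    have h1 : y - T f d i0 (idx y) < (s (f^[idx y] i0)).length := by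
      have h2 := hi1 y
      have h3 := hi2 y
      rw [T_succ] at h3
      have h4 := hd2 (f^[idx y] i0)
      omega
    show u0 y = some ((u0 y).getD _)
    show (s (f^[idx y] i0))[y - T f d i0 (idx y)]? =
      some (((s (f^[idx y] i0))[y - T f d i0 (idx y)]?).getD _)
    rw [List.getElem?_eq_getElem h1]
    rfl
  have key' : ∀ j t, j < (s (f^[t] i0)).length →
      (s (f^[t] i0))[j]? = some (u (T f d i0 t + j)) := by
    intro j t hj
    rw [key j t hj, hsome]
  refine ⟨u, ?_, ?_⟩
  · intro t
    apply List.ext_getElem?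
    intro n
    by_cases hn : n < (s (f^[t] i0)).length
    · rw [key' n t hn, window_getElem? _ _ _ _ hn]
    · push Not at hn
      rw [List.getElem?_eq_none hn, List.getElem?_eq_none (by simpa using hn)]
  · intro n
    have h1 := hi1 n
    have h2 := hi2 n
    rw [T_succ] at h2
    set t := idx n with ht
    obtain ⟨j, hj⟩ : ∃ j, n = T f d i0 t + j := ⟨n - T f d i0 t, by omega⟩
    have hjlt : j < (s (f^[t] i0)).length := by
      have := hd2 (f^[t] i0)
      omega
    have hjlt' : j < (s (f^[m + t] i0)).length := by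
      rw [iterate_period hfm]
      exact hjlt
    have h3 := key' j t hjlt
    have h4 := key' j (m + t) hjlt'
    rw [iterate_period hfm, h3, T_add_period f d hfm] at h4
    have h5 := Option.some.inj h4
    rw [hj, h5]
    congr 1
    omega

/-- Every window of length `o + 1` of the sequence lies inside a string of the orbit, when all
overlaps along the orbit are at least `o`. -/
theorem window_occ (s : ι → List α) (f : ι → ι) (d : ι → ℕ) (i0 : ι) (u : ℕ → α)
    (hd1 : ∀ i, 0 < d i)
    (hseq : ∀ t, s (f^[t] i0) = window u (T f d i0 t) (s (f^[t] i0)).length)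
    (o : ℕ) (ho : ∀ t, o + d (f^[t] i0) ≤ (s (f^[t] i0)).length) (x : ℕ) :
    ∃ t, window u x (o + 1) <:+: s (f^[t] i0) := by
  obtain ⟨t, h1, h2⟩ := cover f d i0 hd1 x
  refine ⟨t, ?_⟩
  rw [T_succ] at h2
  have h3 := window_infix u (x := x) (L := o + 1) (K := (s (f^[t] i0)).length) h1
    (by have := ho t; omega)
  rwa [← hseq t] at h3

/-- The merge of `n + 1` consecutive strings of the orbit, starting at `i`. -/
def chain (s : ι → List α) (f : ι → ι) (d : ι → ℕ) : ℕ → ι → List α
  | 0, i => s i
  | n + 1, i => (s i).take (d i) ++ chain s f d n (f i)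

/-- The merge is a window of the sequence. -/
theorem chain_eq_window (s : ι → List α) (f : ι → ι) (d : ι → ℕ) (i0 : ι) (u : ℕ → α)
    (hd2 : ∀ i, d i ≤ (s i).length)
    (hseq : ∀ t, s (f^[t] i0) = window u (T f d i0 t) (s (f^[t] i0)).length)
    (n t : ℕ) :
    ∃ L, chain s f d n (f^[t] i0) = window u (T f d i0 t) L ∧
      T f d i0 t + L = T f d i0 (t + n) + (s (f^[t + n] i0)).length := by
  induction n generalizing t with
  | zero => exact ⟨_, hseq t, rfl⟩
  | succ n ih =>
    obtain ⟨L, h1, h2⟩ := ih (t + 1)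
    refine ⟨d (f^[t] i0) + L, ?_, ?_⟩
    · show (s (f^[t] i0)).take (d (f^[t] i0)) ++ chain s f d n (f (f^[t] i0)) = _
      rw [← Function.iterate_succ_apply' f t i0, h1, T_succ, ← window_append]
      congr 1
      have h3 := hseq t
      rw [List.prefix_iff_eq_take.mp (window_prefix u (T f d i0 t) (hd2 (f^[t] i0)))]
      simp only [window_length]
      rw [← h3]
    · have e1 : t + (n + 1) = t + 1 + n := by omega
      rw [e1, ← h2, T_succ]
      omega

/-- The end positions of the strings do not decrease along the orbit when `s i` never reaches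
past the end of `s (f i)`. -/
lemma end_mono (s : ι → List α) (f : ι → ι) (d : ι → ℕ) (i0 : ι)
    (hend : ∀ i, (s i).length ≤ d i + (s (f i)).length) :
    Monotone (fun t => T f d i0 t + (s (f^[t] i0)).length) := by
  apply monotone_nat_of_le_succ
  intro t
  show T f d i0 t + (s (f^[t] i0)).length ≤ T f d i0 (t + 1) + (s (f^[t + 1] i0)).length
  rw [T_succ, Function.iterate_succ_apply']
  have := hend (f^[t] i0)
  omega

/-- The merge contains all strings that it joins. -/
theorem infix_chain (s : ι → List α) (f : ι → ι) (d : ι → ℕ) (i0 : ι) (u : ℕ → α)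
    (hd2 : ∀ i, d i ≤ (s i).length)
    (hend : ∀ i, (s i).length ≤ d i + (s (f i)).length)
    (hseq : ∀ t, s (f^[t] i0) = window u (T f d i0 t) (s (f^[t] i0)).length)
    (n t : ℕ) (ht : t ≤ n) : s (f^[t] i0) <:+: chain s f d n i0 := by
  obtain ⟨L, h1, h2⟩ := chain_eq_window s f d i0 u hd2 hseq n 0
  simp only [Function.iterate_zero, id_eq, T_zero, Nat.zero_add] at h1 h2
  rw [h1, hseq t]
  apply window_infix u (Nat.zero_le _)
  have h3 : T f d i0 t + (s (f^[t] i0)).length ≤ T f d i0 n + (s (f^[n] i0)).length :=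
    end_mono s f d i0 hend ht
  omega

end Vale.Agent.Lib.P333.Cycle
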