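import Mathlib

/-!
Factors of a sequence `u : ℕ → α`, as lists.
-/

namespace Vale.Agent.Lib.P333

variable {α : Type*}

/-- The block `u x, u (x+1), ..., u (x+ℓ-1)` of a sequence. -/
def fac (u : ℕ → α) (x ℓ : ℕ) : List α := (List.range ℓ).map (fun j => u (x + j))

@[simp] theorem fac_length (u : ℕ → α) (x ℓ : ℕ) : (fac u x ℓ).length = ℓ := by
  simp [fac]

theorem fac_getElem (u : ℕ → α) (x ℓ i : ℕ) (h : i < (fac u x ℓ).length) :
    (fac u x ℓ)[i] = u (x + i) := by
  simp [fac]

theorem fac_add (u : ℕ → α) (x a b : ℕ) :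
    fac u x (a + b) = fac u x a ++ fac u (x + a) b := by
  unfold fac
  rw [List.range_add, List.map_append, List.map_map]
  congr 1
  apply List.map_congr_left
  intro j _
  simp [Nat.add_assoc]

theorem fac_ext {u v : ℕ → α} {x y ℓ : ℕ} (h : ∀ i, i < ℓ → u (x + i) = v (y + i)) :
    fac u x ℓ = fac v y ℓ := by
  unfold fac
  apply List.map_congr_left
  intro j hj
  exact h j (List.mem_range.mp hj)

theorem fac_eq_iff {u v : ℕ → α} {x y ℓ : ℕ} :
    fac u x ℓ = fac v y ℓ ↔ ∀ i, i < ℓ → u (x + i) = v (y + i) := by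
  constructor
  · intro h i hi
    have h1 : (fac u x ℓ)[i]'(by simpa using hi) = (fac v y ℓ)[i]'(by simpa using hi) := by
      simp only [h]
    simpa [fac_getElem] using h1
  · exact fac_ext

/-- A sub-block is an infix. -/
theorem fac_infix (u : ℕ → α) {x y m n : ℕ} (h1 : x ≤ y) (h2 : y + m ≤ x + n) :
    fac u y m <:+: fac u x n := by
  obtain ⟨a, rfl⟩ := Nat.exists_eq_add_of_le h1
  obtain ⟨b, hb⟩ := Nat.exists_eq_add_of_le (show a + m ≤ n by omega)
  subst hb
  rw [Nat.add_assoc, fac_add, fac_add]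
  exact ⟨fac u x a, fac u (x + a + m) b, by simp [Nat.add_assoc]⟩

theorem fac_prefix (u : ℕ → α) (x : ℕ) {m n : ℕ} (h : m ≤ n) :
    fac u x m <+: fac u x n := by
  obtain ⟨b, rfl⟩ := Nat.exists_eq_add_of_le h
  rw [fac_add]
  exact List.prefix_append _ _

/-- Iterating a period. -/
theorem per_mul {u : ℕ → α} {p : ℕ} (hp : ∀ y, u (y + p) = u y) (m y : ℕ) :
    u (y + m * p) = u y := by
  induction m with
  | zero => simp
  | succ m ih =>
    rw [Nat.succ_mul, ← Nat.add_assoc, hp, ih]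

/-- A block of a periodic sequence only depends on the phase. -/
theorem per_mod {u : ℕ → α} {p : ℕ} (hp : ∀ y, u (y + p) = u y) (y : ℕ) :
    u (y % p) = u y := by
  conv_rhs => rw [← Nat.mod_add_div y p]
  rw [Nat.mul_comm, per_mul hp]

theorem fac_shift_per {u : ℕ → α} {p : ℕ} (hp : ∀ y, u (y + p) = u y) (x ℓ : ℕ) :
    fac u (x + p) ℓ = fac u x ℓ := by
  apply fac_ext
  intro i _
  have : x + p + i = x + i + p := by omega
  rw [this, hp]

end Vale.Agent.Lib.P333
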