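import Vale.Agent.Lib.P333.Defs
import Vale.Agent.Lib.P333.Fac

namespace Vale.Agent.Lib.P333

set_option linter.unusedSectionVars false

variable {α : Type*} [DecidableEq α]

theorem ov_mem {a : List α} (b : List α) (ha : a ≠ []) :
    ov a b ∈ (Finset.range a.length).filter (fun k => a.drop (a.length - k) = b.take k) := by
  have hne : ((Finset.range a.length).filter
      (fun k => a.drop (a.length - k) = b.take k)).Nonempty := by
    refine ⟨0, Finset.mem_filter.mpr ⟨Finset.mem_range.mpr (List.length_pos_iff.mpr ha), ?_⟩⟩
    simp
  obtain ⟨k, hk, hk2⟩ := Finset.exists_mem_eq_sup _ hne (id : ℕ → ℕ)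
  unfold ov
  rw [hk2]
  exact hk

theorem ov_lt {a : List α} (b : List α) (ha : a ≠ []) : ov a b < a.length :=
  Finset.mem_range.mp (Finset.mem_filter.mp (ov_mem b ha)).1

theorem ov_spec {a : List α} (b : List α) (ha : a ≠ []) :
    a.drop (a.length - ov a b) = b.take (ov a b) :=
  (Finset.mem_filter.mp (ov_mem b ha)).2

theorem ov_le_right {a : List α} (b : List α) (ha : a ≠ []) : ov a b ≤ b.length := by
  have h := congrArg List.length (ov_spec b ha)
  have h2 := ov_lt b ha
  simp only [List.length_drop, List.length_take] at h
  omega

theorem le_ov {a b : List α} {k : ℕ} (hk : k < a.length) (h : a.drop (a.length - k) = b.take k) :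
    k ≤ ov a b := by
  unfold ov
  exact Finset.le_sup (f := id)
    (Finset.mem_filter.mpr ⟨Finset.mem_range.mpr hk, h⟩)

variable {ι : Type*} [Fintype ι] [DecidableEq ι]

theorem dist_pos {s : ι → List α} (hne : ∀ i, s i ≠ []) (i j : ι) : 0 < dist s i j := by
  have := ov_lt (s j) (hne i)
  unfold dist
  omega

theorem dist_add_ov {s : ι → List α} (hne : ∀ i, s i ≠ []) (i j : ι) :
    dist s i j + ov (s i) (s j) = (s i).length := by
  have := ov_lt (s j) (hne i)
  unfold dist
  omega

theorem dist_le_length (s : ι → List α) (i j : ι) : dist s i j ≤ (s i).length := by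
  unfold dist
  omega

/-- Gap rule: two strings read in one sequence at distance `g`, the second not contained in the
first: the distance of the arc is at most `g`. -/
theorem dist_le_gap {s : ι → List α} {v : ℕ → α} {a b : ι} {x g : ℕ} (hg : 0 < g)
    (ha : s a = fac v x (s a).length) (hb : s b = fac v (x + g) (s b).length)
    (hlen : (s a).length ≤ g + (s b).length) : dist s a b ≤ g := by
  by_cases hga : (s a).length ≤ g
  · exact (dist_le_length s a b).trans hga
  · push Not at hga
    have hk : (s a).length - g < (s a).length := by omega
    have heq : (s a).drop ((s a).length - ((s a).length - g)) = (s b).take ((s a).length - g) := by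
      have e1 : (s a).length - ((s a).length - g) = g := by omega
      rw [e1]
      have h1 : (fac v x (s a).length).drop g = fac v (x + g) ((s a).length - g) := by
        obtain ⟨m, hm⟩ : ∃ m, (s a).length = g + m := ⟨(s a).length - g, by omega⟩
        rw [hm, fac_add]
        simp
      have h2 : (fac v (x + g) (s b).length).take ((s a).length - g) =
          fac v (x + g) ((s a).length - g) := by
        have hp := fac_prefix v (x + g) (show (s a).length - g ≤ (s b).length by omega)
        have := (List.prefix_iff_eq_take.mp hp)
        simpa using this.symm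
      calc (s a).drop g = (fac v x (s a).length).drop g := by rw [← ha]
        _ = fac v (x + g) ((s a).length - g) := h1
        _ = (fac v (x + g) (s b).length).take ((s a).length - g) := h2.symm
        _ = (s b).take ((s a).length - g) := by rw [← hb]
    have := le_ov hk heq
    unfold dist
    omega

end Vale.Agent.Lib.P333
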