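import Mathlib

/-!
Theorem C core for the superstring problem: in a superstring of a factor free family, each word
`w i` may be replaced at the same time by a longer word `e i` that has `w i` both as an initial and
as a final segment; the length grows exactly by the sum of the length differences.
-/

namespace Vale.Agent.Lib.P333.Replace

variable {α : Type*}

/-- The word `w` occurs in `Ω` starting at position `p`. -/
def OccAt (Ω w : List α) (p : ℕ) : Prop := ∃ A B, Ω = A ++ w ++ B ∧ A.length = p

theorem OccAt.inside {Ω w : List α} {p : ℕ} (h : OccAt Ω w p) : w <:+: Ω := by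
  obtain ⟨A, B, rfl, -⟩ := h
  exact ⟨A, B, rfl⟩

theorem occAt_of_infix {Ω w : List α} (h : w <:+: Ω) : ∃ p, OccAt Ω w p := by
  obtain ⟨A, B, rfl⟩ := h
  exact ⟨A.length, A, B, rfl, rfl⟩

theorem OccAt.append_right {X w : List α} {q : ℕ} (h : OccAt X w q) (Z : List α) :
    OccAt (X ++ Z) w q := by
  obtain ⟨A, B, rfl, hA⟩ := h
  exact ⟨A, B ++ Z, by simp [List.append_assoc], hA⟩

theorem OccAt.append_left {Y w : List α} {q : ℕ} (h : OccAt Y w q) (Z : List α) :
    OccAt (Z ++ Y) w (Z.length + q) := by
  obtain ⟨A, B, rfl, hA⟩ := h
  exact ⟨Z ++ A, B, by simp [List.append_assoc], by simp [hA]⟩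

/-- An occurrence that ends inside the left factor is an occurrence in the left factor. -/
theorem OccAt.of_append_left {X Y w : List α} {q : ℕ} (h : OccAt (X ++ Y) w q)
    (hq : q + w.length ≤ X.length) : OccAt X w q := by
  obtain ⟨A, B, hE, hA⟩ := h
  have h1 : (X ++ Y).take (q + w.length) = A ++ w := by
    rw [hE, List.append_assoc, ← hA, List.take_append]
    simp
  have h2 : X.take (q + w.length) = A ++ w := by
    rw [← h1, List.take_append_of_le_length hq]
  refine ⟨A, X.drop (q + w.length), ?_, hA⟩
  rw [← h2, List.take_append_drop]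

/-- An occurrence that starts inside the right factor is an occurrence in the right factor. -/
theorem OccAt.of_append_right {X Y w : List α} {q : ℕ} (h : OccAt (X ++ Y) w q)
    (hq : X.length ≤ q) : OccAt Y w (q - X.length) := by
  obtain ⟨A, B, hE, hA⟩ := h
  have h1 : (X ++ Y).drop X.length = Y := by simp
  have h2 : (A ++ w ++ B).drop X.length = A.drop X.length ++ w ++ B := by
    rw [List.append_assoc, List.drop_append_of_le_length (by omega), List.append_assoc]
  refine ⟨A.drop X.length, B, ?_, by simp [hA]⟩
  rw [← h1, hE, h2]

/-- Two occurrences of which one lies in the other give a factor relation. -/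
theorem OccAt.inside_of_nested {Ω a b : List α} {p q : ℕ} (ha : OccAt Ω a p) (hb : OccAt Ω b q)
    (h1 : p ≤ q) (h2 : q + b.length ≤ p + a.length) : b <:+: a := by
  obtain ⟨A, B, rfl, hA⟩ := ha
  have h3 : OccAt (A ++ a) b q := hb.of_append_left (by simp; omega)
  have h4 : OccAt a b (q - A.length) := h3.of_append_right (by omega)
  exact h4.inside

/-- Non nested position pairs: strict order of starts and of ends agree. -/
def NN (p m q n : ℕ) : Prop := (p < q ∧ p + m < q + n) ∨ (q < p ∧ q + n < p + m)

theorem NN.symm {p m q n : ℕ} (h : NN p m q n) : NN q n p m := Or.symm h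

theorem nn_of_not_infix {Ω a b : List α} {p q : ℕ} (ha : OccAt Ω a p) (hb : OccAt Ω b q)
    (hab : ¬ a <:+: b) (hba : ¬ b <:+: a) : NN p a.length q b.length := by
  unfold NN
  by_contra hcon
  have hc : ¬ ((p < q ∧ p + a.length < q + b.length) ∨ (q < p ∧ q + b.length < p + a.length)) := hcon
  by_cases h1 : p ≤ q ∧ q + b.length ≤ p + a.length
  · exact hba (ha.inside_of_nested hb h1.1 h1.2)
  · by_cases h2 : q ≤ p ∧ p + a.length ≤ q + b.length
    · exact hab (hb.inside_of_nested ha h2.1 h2.2)
    · apply hc
      omega

/-- Current state of the replacement: all words occur at their positions, pairwise non nested. -/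
structure Good {ι : Type*} (Ω : List α) (W : ι → List α) (p : ι → ℕ) : Prop where
  occ : ∀ i, OccAt Ω (W i) (p i)
  nn : ∀ i j, i ≠ j → NN (p i) (W i).length (p j) (W j).length

/-- One replacement step. -/
theorem Good.step {ι : Type*} [DecidableEq ι] {Ω : List α} {W : ι → List α} {p : ι → ℕ}
    (h : Good Ω W p) (i₀ : ι) (e : List α) (hpre : W i₀ <+: e) (hsuf : W i₀ <:+ e) :
    ∃ (Ω' : List α) (p' : ι → ℕ), Ω'.length + (W i₀).length = Ω.length + e.length ∧
      Good Ω' (Function.update W i₀ e) p' := by
  classical
  obtain ⟨A, B, hΩ, hA⟩ := h.occ i₀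
  obtain ⟨v, hv⟩ := hpre
  obtain ⟨u, hu⟩ := hsuf
  have hlen : u.length = v.length := by
    have h1 := congrArg List.length hv
    have h2 := congrArg List.length hu
    simp only [List.length_append] at h1 h2
    omega
  have hlene : e.length = (W i₀).length + v.length := by
    rw [← hv, List.length_append]
  refine ⟨A ++ e ++ B, fun j => if j = i₀ then p i₀ else if p j < p i₀ then p j else p j + v.length,
    ?_, ?_, ?_⟩
  · rw [hΩ]
    simp only [List.length_append]
    omega
  · intro j
    by_cases hj : j = i₀
    · subst hj
      simp only [Function.update_self, if_true]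
      exact ⟨A, B, rfl, hA⟩
    · have hnn := h.nn j i₀ hj
      simp only [Function.update_of_ne hj, if_neg hj]
      by_cases hlt : p j < p i₀
      · rw [if_pos hlt]
        have hend : p j + (W j).length ≤ (A ++ W i₀).length := by
          simp only [List.length_append, hA]
          rcases hnn with h1 | h1
          · omega
          · omega
        have h1 : OccAt ((A ++ W i₀) ++ B) (W j) (p j) := by
          have := h.occ j
          rwa [hΩ] at this
        have h2 : OccAt (A ++ W i₀) (W j) (p j) := h1.of_append_left hend
        have h3 : OccAt (A ++ e) (W j) (p j) := by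
          rw [← hv, ← List.append_assoc]
          exact h2.append_right v
        exact h3.append_right B
      · rw [if_neg hlt]
        have hstart : A.length ≤ p j := by omega
        have h1 : OccAt (A ++ (W i₀ ++ B)) (W j) (p j) := by
          have := h.occ j
          rwa [hΩ, List.append_assoc] at this
        have h2 : OccAt (W i₀ ++ B) (W j) (p j - A.length) := h1.of_append_right hstart
        have h3 : OccAt (u ++ (W i₀ ++ B)) (W j) (u.length + (p j - A.length)) := h2.append_left u
        have h4 : OccAt (A ++ (u ++ (W i₀ ++ B))) (W j) (A.length + (u.length + (p j - A.length))) :=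
          h3.append_left A
        have h5 : A ++ (u ++ (W i₀ ++ B)) = A ++ e ++ B := by
          rw [← hu]
          simp [List.append_assoc]
        rw [h5] at h4
        have h6 : A.length + (u.length + (p j - A.length)) = p j + v.length := by omega
        rwa [h6] at h4
  · intro j k hjk
    by_cases hj : j = i₀
    · subst hj
      have hk : k ≠ j := fun hh => hjk hh.symm
      have hnn := h.nn j k hjk
      simp only [Function.update_self, Function.update_of_ne hk, if_true, if_neg hk]
      by_cases hlt : p k < p j
      · rw [if_pos hlt]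
        unfold NN at hnn ⊢
        rcases hnn with h1 | h1 <;> omega
      · rw [if_neg hlt]
        unfold NN at hnn ⊢
        rcases hnn with h1 | h1 <;> omega
    · by_cases hk : k = i₀
      · subst hk
        have hnn := h.nn j k hjk
        simp only [Function.update_self, Function.update_of_ne hj, if_true, if_neg hj]
        by_cases hlt : p j < p k
        · rw [if_pos hlt]
          unfold NN at hnn ⊢
          rcases hnn with h1 | h1 <;> omega
        · rw [if_neg hlt]
          unfold NN at hnn ⊢
          rcases hnn with h1 | h1 <;> omega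
      · have hnn := h.nn j k hjk
        have hnj := h.nn j i₀ hj
        have hnk := h.nn k i₀ hk
        simp only [Function.update_of_ne hj, Function.update_of_ne hk, if_neg hj, if_neg hk]
        unfold NN at hnn hnj hnk ⊢
        by_cases hlt : p j < p i₀ <;> by_cases hlt' : p k < p i₀
        · rw [if_pos hlt, if_pos hlt']
          exact hnn
        · rw [if_pos hlt, if_neg hlt']
          rcases hnn with h1 | h1 <;> rcases hnj with h2 | h2 <;> rcases hnk with h3 | h3 <;> omega
        · rw [if_neg hlt, if_pos hlt']
          rcases hnn with h1 | h1 <;> rcases hnj with h2 | h2 <;> rcases hnk with h3 | h3 <;> omega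
        · rw [if_neg hlt, if_neg hlt']
          rcases hnn with h1 | h1 <;> omega

/-- Replacement of a whole finite set of words. -/
theorem Good.exists_replace {ι : Type*} [DecidableEq ι] {Ω : List α} {W : ι → List α} {p : ι → ℕ}
    (h : Good Ω W p) (e : ι → List α) (hpre : ∀ i, W i <+: e i) (hsuf : ∀ i, W i <:+ e i)
    (s : Finset ι) :
    ∃ (Ω' : List α) (p' : ι → ℕ),
      Ω'.length + ∑ i ∈ s, (W i).length = Ω.length + ∑ i ∈ s, (e i).length ∧
      Good Ω' (fun i => if i ∈ s then e i else W i) p' := by
  classical
  induction s using Finset.induction_on with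
  | empty =>
    refine ⟨Ω, p, by simp, ?_⟩
    simpa using h
  | insert i₀ s hi₀ ih =>
    obtain ⟨Ω₁, p₁, hlen₁, hg₁⟩ := ih
    have h₀ : (if i₀ ∈ s then e i₀ else W i₀) = W i₀ := by simp [hi₀]
    obtain ⟨Ω₂, p₂, hlen₂, hg₂⟩ := hg₁.step i₀ (e i₀) (by rw [h₀]; exact hpre i₀)
      (by rw [h₀]; exact hsuf i₀)
    refine ⟨Ω₂, p₂, ?_, ?_⟩
    · rw [Finset.sum_insert hi₀, Finset.sum_insert hi₀]
      simp only [h₀] at hlen₂
      omega
    · have heq : (fun i => if i ∈ insert i₀ s then e i else W i) =
          Function.update (fun i => if i ∈ s then e i else W i) i₀ (e i₀) := by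
        funext i
        by_cases hi : i = i₀
        · subst hi
          simp
        · simp [Finset.mem_insert, hi]
      rw [heq]
      exact hg₂

/-- **Replacement theorem.** Let `w i` be pairwise factor free words, all factors of `Ω`, and let
`e i` be words that have `w i` both as initial and as final segment. Then some `Ω'` contains all
`e i` and has length `|Ω| + ∑ (|e i| - |w i|)`. -/
theorem exists_superstring_of_extensions {ι : Type*} [Fintype ι] [DecidableEq ι]
    (Ω : List α) (w e : ι → List α) (hΩ : ∀ i, w i <:+: Ω)
    (hff : ∀ i j, i ≠ j → ¬ w i <:+: w j)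
    (hpre : ∀ i, w i <+: e i) (hsuf : ∀ i, w i <:+ e i) :
    ∃ Ω' : List α, Ω'.length + ∑ i, (w i).length = Ω.length + ∑ i, (e i).length ∧
      ∀ i, e i <:+: Ω' := by
  classical
  choose p hp using fun i => occAt_of_infix (hΩ i)
  have hg : Good Ω w p :=
    ⟨hp, fun i j hij => nn_of_not_infix (hp i) (hp j) (hff i j hij) (hff j i hij.symm)⟩
  obtain ⟨Ω', p', hlen, hg'⟩ := hg.exists_replace e hpre hsuf Finset.univ
  refine ⟨Ω', hlen, fun i => ?_⟩
  have := (hg'.occ i).inside
  simpa using this

end Vale.Agent.Lib.P333.Replace
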