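import Vale.Agent.Lib.P333.Ov

/-!
Sorting a set of strings read in one long or periodic word gives a cycle of small weight.
-/

namespace Vale.Agent.Lib.P333

set_option linter.unusedSectionVars false

variable {ι : Type*} [DecidableEq ι]

/-- A cycle through a finite set sorted by an injective position function. -/
theorem exists_sorted_aux (A : Finset ι) (φ : ι → ℕ) (hφ : Set.InjOn φ A) (c : ι → ι → ℕ)
    (h1 : ∀ a ∈ A, ∀ b ∈ A, φ a < φ b → c a b ≤ φ b - φ a) :
    A.Nonempty → ∃ (τ : Equiv.Perm ι) (m f : ι), m ∈ A ∧ f ∈ A ∧ φ f ≤ φ m ∧ τ m = f ∧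
      (∀ i, i ∉ A → τ i = i) ∧ (∀ a ∈ A, τ a ∈ A) ∧
      (∀ a ∈ A, φ a ≤ φ m) ∧
      ∑ a ∈ A.erase m, c a (τ a) + φ f ≤ φ m := by
  induction A using Finset.induction_on_max_value φ with
  | empty => intro h; exact absurd h (by simp)
  | insert a s ha hmax ih =>
    intro _
    rcases s.eq_empty_or_nonempty with rfl | hs
    · refine ⟨1, a, a, by simp, by simp, le_rfl, rfl, fun _ _ => rfl, by simp, by simp, by simp⟩
    · have hφ' : Set.InjOn φ s := hφ.mono (by simp)
      have h1' : ∀ x ∈ s, ∀ y ∈ s, φ x < φ y → c x y ≤ φ y - φ x :=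
        fun x hx y hy => h1 x (Finset.mem_insert_of_mem hx) y (Finset.mem_insert_of_mem hy)
      obtain ⟨τ, m, f, hm, hf, hfm, hτm, hout, hin, hmaxm, hsum⟩ := ih hφ' h1' hs
      have hma : m ≠ a := fun h => ha (h ▸ hm)
      have hlt : φ m < φ a := by
        apply lt_of_le_of_ne (hmax m hm)
        intro h
        exact hma (hφ (by simp [hm]) (by simp) h)
      have hτa : τ a = a := hout a ha
      refine ⟨τ * Equiv.swap m a, a, f, by simp, Finset.mem_insert_of_mem hf,
        hfm.trans hlt.le, ?_, ?_, ?_, ?_, ?_⟩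
      · simp [Equiv.swap_apply_right, hτm]
      · intro i hi
        have hia : i ≠ a := fun h => hi (h ▸ Finset.mem_insert_self _ _)
        have his : i ∉ s := fun h => hi (Finset.mem_insert_of_mem h)
        have him : i ≠ m := fun h => his (h ▸ hm)
        simp [Equiv.swap_apply_of_ne_of_ne him hia, hout i his]
      · intro x hx
        rcases Finset.mem_insert.mp hx with rfl | hxs
        · simp only [Equiv.Perm.coe_mul, Function.comp_apply, Equiv.swap_apply_right, hτm]
          exact Finset.mem_insert_of_mem hf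
        · by_cases hxm : x = m
          · subst hxm
            simp [Equiv.swap_apply_left, hτa]
          · have hxa : x ≠ a := fun h => ha (h ▸ hxs)
            simp only [Equiv.Perm.coe_mul, Function.comp_apply,
              Equiv.swap_apply_of_ne_of_ne hxm hxa]
            exact Finset.mem_insert_of_mem (hin x hxs)
      · intro x hx
        rcases Finset.mem_insert.mp hx with rfl | hxs
        · exact le_rfl
        · exact hmax x hxs
      · have herase : (insert a s).erase a = s := Finset.erase_insert ha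
        rw [herase]
        have hsplit : ∑ x ∈ s, c x ((τ * Equiv.swap m a) x) =
            ∑ x ∈ s.erase m, c x (τ x) + c m a := by
          rw [← Finset.sum_erase_add s _ hm]
          congr 1
          · apply Finset.sum_congr rfl
            intro x hx
            have hxm : x ≠ m := (Finset.mem_erase.mp hx).1
            have hxs : x ∈ s := (Finset.mem_erase.mp hx).2
            have hxa : x ≠ a := fun h => ha (h ▸ hxs)
            simp [Equiv.swap_apply_of_ne_of_ne hxm hxa]
          · simp [Equiv.swap_apply_left, hτa]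
        rw [hsplit]
        have hc := h1 m (Finset.mem_insert_of_mem hm) a (Finset.mem_insert_self _ _) hlt
        omega

theorem exists_sorted_cycle (A : Finset ι) (hA : A.Nonempty) (φ : ι → ℕ) (hφ : Set.InjOn φ A)
    (c : ι → ι → ℕ) (U : ℕ)
    (h1 : ∀ a ∈ A, ∀ b ∈ A, φ a < φ b → c a b ≤ φ b - φ a)
    (h2 : ∀ a ∈ A, ∀ b ∈ A, φ b ≤ φ a → c a b ≤ U + φ b - φ a)
    (h3 : ∀ a ∈ A, ∀ b ∈ A, φ a ≤ φ b + U) :
    ∃ τ : Equiv.Perm ι, (∀ i, i ∉ A → τ i = i) ∧ (∀ a ∈ A, τ a ∈ A) ∧
      ∑ a ∈ A, c a (τ a) ≤ U := by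
  obtain ⟨τ, m, f, hm, hf, hfm, hτm, hout, hin, -, hsum⟩ := exists_sorted_aux A φ hφ c h1 hA
  refine ⟨τ, hout, hin, ?_⟩
  rw [← Finset.sum_erase_add A _ hm, hτm]
  have := h2 m hm f hf hfm
  have h4 := h3 m hm f hf
  omega

variable {α : Type*} [DecidableEq α] [Fintype ι]

/-- A cycle cover is at most any cover that differs from it on an invariant set. -/
theorem sum_le_of_min {s : ι → List α} {σ : Equiv.Perm ι} (hσ : IsMinCover s σ)
    (A : Finset ι) (hA1 : ∀ i ∈ A, σ i ∈ A) (hA2 : ∀ i, σ i ∈ A → i ∈ A)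
    (τ : Equiv.Perm ι) (hτ : ∀ a ∈ A, τ a ∈ A) :
    ∑ a ∈ A, dist s a (σ a) ≤ ∑ a ∈ A, dist s a (τ a) := by
  classical
  let f : ι → ι := fun i => if i ∈ A then τ i else σ i
  have hinj : Function.Injective f := by
    intro i j hij
    simp only [f] at hij
    by_cases hi : i ∈ A <;> by_cases hj : j ∈ A
    · simp only [hi, hj, if_true] at hij
      exact τ.injective hij
    · simp only [hi, hj, if_true, if_false] at hij
      exact absurd (hA2 j (hij ▸ hτ i hi)) hj
    · simp only [hi, hj, if_true, if_false] at hij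
      exact absurd (hA2 i (hij.symm ▸ hτ j hj)) hi
    · simp only [hi, hj, if_false] at hij
      exact σ.injective hij
  let ρ : Equiv.Perm ι := Equiv.ofBijective f (Finite.injective_iff_bijective.mp hinj)
  have h := hσ ρ
  unfold coverCost at h
  have hρ : ∀ i, ρ i = f i := fun i => rfl
  simp only [hρ] at h
  rw [← Finset.sum_filter_add_sum_filter_not Finset.univ (· ∈ A),
    ← Finset.sum_filter_add_sum_filter_not Finset.univ (· ∈ A) (fun i => dist s i (f i))] at h
  have e1 : Finset.univ.filter (· ∈ A) = A := by ext; simp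
  rw [e1] at h
  have e2 : ∑ i ∈ A, dist s i (f i) = ∑ a ∈ A, dist s a (τ a) := by
    apply Finset.sum_congr rfl
    intro i hi
    simp [f, hi]
  have e3 : ∑ i ∈ Finset.univ.filter (fun x => ¬ x ∈ A), dist s i (f i) =
      ∑ i ∈ Finset.univ.filter (fun x => ¬ x ∈ A), dist s i (σ i) := by
    apply Finset.sum_congr rfl
    intro i hi
    have : i ∉ A := (Finset.mem_filter.mp hi).2
    simp [f, this]
  rw [e2, e3] at h
  omega

/-- The strings in an invariant set which all occur in one `U`-periodic sequence have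
total weight at most `U`. -/
theorem sum_le_of_common_seq {s : ι → List α} (hne : ∀ i, s i ≠ [])
    (hfree : ∀ i j, i ≠ j → ¬ s i <:+: s j) {σ : Equiv.Perm ι} (hσ : IsMinCover s σ)
    (A : Finset ι) (hA1 : ∀ i ∈ A, σ i ∈ A) (hA2 : ∀ i, σ i ∈ A → i ∈ A)
    (v : ℕ → α) (U : ℕ) (hU : 0 < U) (hv : ∀ y, v (y + U) = v y) (P : ι → ℕ)
    (hP : ∀ i ∈ A, s i = fac v (P i) (s i).length) :
    ∑ a ∈ A, dist s a (σ a) ≤ U := by
  classical
  rcases A.eq_empty_or_nonempty with rfl | hAne
  · simp
  -- reduce to phases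
  have hmodf : ∀ x ℓ, fac v (x % U) ℓ = fac v x ℓ := by
    intro x ℓ
    apply fac_ext
    intro i _
    rw [← per_mod hv (x % U + i), ← per_mod hv (x + i)]
    simp [Nat.add_mod]
  let φ : ι → ℕ := fun i => P i % U
  have hφU : ∀ i, φ i < U := fun i => Nat.mod_lt _ hU
  have hQ : ∀ i ∈ A, s i = fac v (φ i) (s i).length := by
    intro i hi
    rw [hmodf]
    exact hP i hi
  -- no containment
  have hcontain : ∀ a ∈ A, ∀ b ∈ A, ∀ g, a ≠ b → s a = fac v (φ a) (s a).length →
      s b = fac v (φ a + g) (s b).length → (s a).length ≤ g + (s b).length := by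
    intro a _ b _ g hab ha hb
    by_contra hcon
    push Not at hcon
    apply hfree b a (Ne.symm hab)
    rw [ha, hb]
    exact fac_infix v (by omega) (by omega)
  have hinj : Set.InjOn φ (A : Set ι) := by
    intro a ha b hb hab
    by_contra hne'
    have ha' : a ∈ A := ha
    have hb' : b ∈ A := hb
    rcases le_total (s a).length (s b).length with hl | hl
    · apply hfree a b hne'
      rw [hQ a ha', hQ b hb', hab]
      simpa using fac_infix v (le_refl (φ b)) (by simpa using hl)
    · apply hfree b a (Ne.symm hne')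
      rw [hQ a ha', hQ b hb', hab]
      simpa using fac_infix v (le_refl (φ b)) (by simpa using hl)
  have hs1 : ∀ a ∈ A, ∀ b ∈ A, φ a < φ b → dist s a b ≤ φ b - φ a := by
    intro a ha b hb hlt
    obtain ⟨g, hg⟩ : ∃ g, φ b = φ a + g := ⟨φ b - φ a, by omega⟩
    have hab : a ≠ b := by
      rintro rfl
      omega
    rw [hg]
    simp only [Nat.add_sub_cancel_left]
    have hb2 : s b = fac v (φ a + g) (s b).length := by
      rw [← hg]; exact hQ b hb
    exact dist_le_gap (by omega) (hQ a ha) hb2 (hcontain a ha b hb g hab (hQ a ha) hb2)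
  have hs2 : ∀ a ∈ A, ∀ b ∈ A, φ b ≤ φ a → dist s a b ≤ U + φ b - φ a := by
    intro a ha b hb hle
    have hφa := hφU a
    obtain ⟨g, hg⟩ : ∃ g, φ b + U = φ a + g := ⟨φ b + U - φ a, by omega⟩
    have hg' : U + φ b - φ a = g := by omega
    rw [hg']
    have hb2 : s b = fac v (φ a + g) (s b).length := by
      rw [← hg, fac_shift_per hv]
      exact hQ b hb
    by_cases hab : a = b
    · subst hab
      have hlen : (s a).length ≤ g + (s a).length := by omega
      exact dist_le_gap (by omega) (hQ a ha) hb2 hlen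
    · exact dist_le_gap (by omega) (hQ a ha) hb2 (hcontain a ha b hb g hab (hQ a ha) hb2)
  have hs3 : ∀ a ∈ A, ∀ b ∈ A, φ a ≤ φ b + U := by
    intro a _ b _
    have := hφU a
    omega
  obtain ⟨τ, -, hτin, hτsum⟩ := exists_sorted_cycle A hAne φ hinj (dist s) U hs1 hs2 hs3
  exact (sum_le_of_min hσ A hA1 hA2 τ hτin).trans hτsum

/-- `C ≤ |Ω|`: a superstring gives a cycle cover of weight at most its length. -/
theorem coverCost_le_length {s : ι → List α} (hne : ∀ i, s i ≠ [])
    (hfree : ∀ i j, i ≠ j → ¬ s i <:+: s j) {σ : Equiv.Perm ι} (hσ : IsMinCover s σ)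
    {Ω : List α} (hΩ : IsSuperstring s Ω) : coverCost s σ ≤ Ω.length := by
  classical
  by_cases hempty : IsEmpty ι
  · simp [coverCost]
  obtain ⟨i0⟩ := not_isEmpty_iff.mp hempty
  -- positions
  have hpos : ∀ i, ∃ p, p + (s i).length ≤ Ω.length ∧ ∃ pre post, Ω = pre ++ s i ++ post ∧
      pre.length = p := by
    intro i
    obtain ⟨pre, post, h⟩ := hΩ i
    refine ⟨pre.length, ?_, pre, post, h.symm, rfl⟩
    rw [← h]; simp
  choose P hP1 hP2 using hpos
  let a0 : α := (s i0).head (hne i0)
  let v : ℕ → α := fun y => Ω.getD y a0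
  have hQ : ∀ i, s i = fac v (P i) (s i).length := by
    intro i
    obtain ⟨pre, post, h, hl⟩ := hP2 i
    apply List.ext_getElem (by simp)
    intro j h1 h2
    rw [fac_getElem]
    simp only [v]
    rw [h, ← hl]
    simp [List.getD_eq_getElem?_getD, List.getElem?_append_right, List.append_assoc]
    rw [List.getElem?_append_left h1]
    simp [h1]
  let φ := P
  have hcontain : ∀ a b g, a ≠ b → s a = fac v (φ a) (s a).length →
      s b = fac v (φ a + g) (s b).length → (s a).length ≤ g + (s b).length := by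
    intro a b g hab ha hb
    by_contra hcon
    push Not at hcon
    apply hfree b a (Ne.symm hab)
    rw [ha, hb]
    exact fac_infix v (by omega) (by omega)
  have hinj : Set.InjOn φ ((Finset.univ : Finset ι) : Set ι) := by
    intro a _ b _ hab
    by_contra hne'
    rcases le_total (s a).length (s b).length with hl | hl
    · apply hfree a b hne'
      rw [hQ a, hQ b, show P a = P b from hab]
      simpa using fac_infix v (le_refl (P b)) (by simpa using hl)
    · apply hfree b a (Ne.symm hne')
      rw [hQ a, hQ b, show P a = P b from hab]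
      simpa using fac_infix v (le_refl (P b)) (by simpa using hl)
  have hs1 : ∀ a ∈ (Finset.univ : Finset ι), ∀ b ∈ (Finset.univ : Finset ι),
      φ a < φ b → dist s a b ≤ φ b - φ a := by
    intro a _ b _ hlt
    obtain ⟨g, hg⟩ : ∃ g, φ b = φ a + g := ⟨φ b - φ a, by omega⟩
    have hab : a ≠ b := by
      rintro rfl
      omega
    rw [hg]
    simp only [Nat.add_sub_cancel_left]
    have hb2 : s b = fac v (φ a + g) (s b).length := by
      rw [← hg]; exact hQ b
    exact dist_le_gap (by omega) (hQ a) hb2 (hcontain a b g hab (hQ a) hb2)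
  have hs2 : ∀ a ∈ (Finset.univ : Finset ι), ∀ b ∈ (Finset.univ : Finset ι),
      φ b ≤ φ a → dist s a b ≤ Ω.length + φ b - φ a := by
    intro a _ b _ hle
    have h1 := hP1 a
    have h2 := dist_le_length s a b
    have : (φ a) + (s a).length ≤ Ω.length := h1
    omega
  have hs3 : ∀ a ∈ (Finset.univ : Finset ι), ∀ b ∈ (Finset.univ : Finset ι),
      φ a ≤ φ b + Ω.length := by
    intro a _ b _
    have h1 := hP1 a
    have : φ a + (s a).length ≤ Ω.length := h1
    omega
  obtain ⟨τ, -, -, hτsum⟩ := exists_sorted_cycle Finset.univ ⟨i0, Finset.mem_univ _⟩ φ hinj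
    (dist s) Ω.length hs1 hs2 hs3
  exact (hσ τ).trans hτsum

end Vale.Agent.Lib.P333
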