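import Vale.Agent.Lib.P333.Orbit
import Vale.Agent.Lib.P333.Ov
import Vale.Agent.Lib.P333.Sorted
import Vale.Agent.Lib.P333.Cycle
import Vale.Agent.Lib.P333.Replace

/-!
The word of a cycle of a minimum cycle cover and the resulting bound on the opened cycles.
-/

namespace Vale.Agent.Lib.P333

open Vale.Agent.Lib.P333.WordLemma Vale.Agent.Lib.P333.Cycle

set_option linter.unusedSectionVars false

variable {α : Type*} [DecidableEq α] {ι : Type*} [Fintype ι] [DecidableEq ι]

theorem window_eq_fac (u : ℕ → α) (x k : ℕ) : window u x k = fac u x k := rfl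

/-- The advance along the arcs of `σ`. -/
def adv (s : ι → List α) (σ : Equiv.Perm ι) (i : ι) : ℕ := dist s i (σ i)

theorem adv_pos {s : ι → List α} (hne : ∀ i, s i ≠ []) (σ : Equiv.Perm ι) (i : ι) :
    0 < adv s σ i := dist_pos hne i (σ i)

theorem adv_le (s : ι → List α) (σ : Equiv.Perm ι) (i : ι) : adv s σ i ≤ (s i).length :=
  dist_le_length s i (σ i)

theorem adv_add_ov {s : ι → List α} (hne : ∀ i, s i ≠ []) (σ : Equiv.Perm ι) (i : ι) :
    adv s σ i + ov (s i) (s (σ i)) = (s i).length := dist_add_ov hne i (σ i)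

theorem adv_overlap {s : ι → List α} (hne : ∀ i, s i ≠ []) (σ : Equiv.Perm ι) (i : ι) (j : ℕ)
    (h1 : adv s σ i ≤ j) (h2 : j < (s i).length) :
    (s i)[j]? = (s (σ i))[j - adv s σ i]? := by
  have hspec := ov_spec (s (σ i)) (hne i)
  have hadd := adv_add_ov hne σ i
  have e1 : (s i).length - ov (s i) (s (σ i)) = adv s σ i := by omega
  rw [e1] at hspec
  have hlt : j - adv s σ i < ov (s i) (s (σ i)) := by omega
  have h3 := congrArg (fun l => l[j - adv s σ i]?) hspec
  simp only [List.getElem?_drop, List.getElem?_take] at h3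
  rw [if_pos hlt] at h3
  have e2 : adv s σ i + (j - adv s σ i) = j := by omega
  rwa [e2] at h3

theorem end_le {s : ι → List α} (hne : ∀ i, s i ≠ []) (σ : Equiv.Perm ι) (i : ι) :
    (s i).length ≤ adv s σ i + (s (σ i)).length := by
  have h1 := ov_le_right (s (σ i)) (hne i)
  have h2 := adv_add_ov hne σ i
  omega

/-- Position of the string number `t` along the orbit of `h`. -/
abbrev pos (s : ι → List α) (σ : Equiv.Perm ι) (h : ι) (t : ℕ) : ℕ := T (⇑σ) (adv s σ) h t

theorem period_eq (s : ι → List α) (σ : Equiv.Perm ι) (h : ι) :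
    period s σ (orbit σ h) = pos s σ h (Function.minimalPeriod σ h) := by
  unfold period pos T adv
  rw [sum_orbit]

theorem exists_word {s : ι → List α} (hne : ∀ i, s i ≠ []) (σ : Equiv.Perm ι) (h : ι) :
    ∃ u : ℕ → α,
      (∀ t, s ((⇑σ)^[t] h) = fac u (pos s σ h t) (s ((⇑σ)^[t] h)).length) ∧
      (∀ y, u (y + period s σ (orbit σ h)) = u y) := by
  obtain ⟨u, h1, h2⟩ := exists_seq s (⇑σ) (adv s σ) h (Function.minimalPeriod σ h)
    (adv_pos hne σ) (adv_le s σ) (adv_overlap hne σ) (iterate_minPeriod σ h)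
  refine ⟨u, h1, ?_⟩
  rw [period_eq]
  exact h2

theorem period_pos {s : ι → List α} (hne : ∀ i, s i ≠ []) {σ : Equiv.Perm ι} {X : Finset ι}
    (hX : X ∈ cycles σ) : 0 < period s σ X := by
  obtain ⟨i, hi⟩ := cycles_nonempty hX
  unfold period
  exact Finset.sum_pos' (fun _ _ => Nat.zero_le _) ⟨i, hi, dist_pos hne _ _⟩

theorem sum_period (s : ι → List α) (σ : Equiv.Perm ι) :
    ∑ X ∈ cycles σ, period s σ X = coverCost s σ := by
  unfold period coverCost
  exact sum_cycles σ _

/-- The merge of the first strings of the orbit as a block of the word. -/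
theorem chain_eq_fac {s : ι → List α} (hne : ∀ i, s i ≠ []) (σ : Equiv.Perm ι) (h : ι) (u : ℕ → α)
    (hu : ∀ t, s ((⇑σ)^[t] h) = fac u (pos s σ h t) (s ((⇑σ)^[t] h)).length) (t : ℕ) :
    chain s σ h t = fac u 0 (pos s σ h t + (s ((⇑σ)^[t] h)).length) := by
  induction t with
  | zero =>
    have := hu 0
    simpa [chain, pos] using this
  | succ t ih =>
    show chain s σ h t ++ (s ((σ ^ (t + 1)) h)).drop (ov (s ((σ ^ t) h)) (s ((σ ^ (t + 1)) h))) = _
    rw [← Equiv.Perm.iterate_eq_pow, ← Equiv.Perm.iterate_eq_pow, ih]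
    have hs : (⇑σ)^[t + 1] h = σ ((⇑σ)^[t] h) := Function.iterate_succ_apply' _ _ _
    have hp : pos s σ h (t + 1) = pos s σ h t + adv s σ ((⇑σ)^[t] h) := T_succ _ _ _ _
    have hadd := adv_add_ov hne σ ((⇑σ)^[t] h)
    have hle := ov_le_right (s (σ ((⇑σ)^[t] h))) (hne ((⇑σ)^[t] h))
    set a := (⇑σ)^[t] h with ha
    set L := (s (σ a)).length with hL
    set o := ov (s a) (s (σ a)) with ho
    rw [hs]
    have hb := hu (t + 1)
    rw [hs] at hb
    have hb' : s (σ a) = fac u (pos s σ h (t + 1)) L := hb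
    have hdrop : (s (σ a)).drop o = fac u (pos s σ h t + (s a).length) (L - o) := by
      obtain ⟨m, hm⟩ : ∃ m, L = o + m := ⟨L - o, by omega⟩
      have e : pos s σ h (t + 1) + o = pos s σ h t + (s a).length := by omega
      have e2 : L - o = m := by omega
      rw [e2, hb', hm, fac_add, e]
      simp
    have hadd2 := fac_add u 0 (pos s σ h t + (s a).length) (L - o)
    rw [Nat.zero_add] at hadd2
    rw [hdrop, ← hadd2]
    congr 1
    omega

theorem iterate_pred (σ : Equiv.Perm ι) (c : ι) :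
    (⇑σ)^[Function.minimalPeriod σ (σ c) - 1] (σ c) = c := by
  have h1 := iterate_minPeriod σ (σ c)
  have h2 := minPeriod_pos σ (σ c)
  obtain ⟨n, hn⟩ : ∃ n, Function.minimalPeriod σ (σ c) = n + 1 := ⟨_, (Nat.succ_pred_eq_of_pos h2).symm⟩
  rw [hn] at h1 ⊢
  rw [Function.iterate_succ_apply'] at h1
  exact σ.injective h1

theorem pos_mono {s : ι → List α} (hne : ∀ i, s i ≠ []) (σ : Equiv.Perm ι) (h : ι) :
    Monotone (fun t => pos s σ h t + (s ((⇑σ)^[t] h)).length) :=
  end_mono s (⇑σ) (adv s σ) h (end_le hne σ)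

/-- Everything needed about the word of the cycle through `c`, read from the string after `c`. -/
theorem exists_cycle_data {s : ι → List α} (hne : ∀ i, s i ≠ []) (σ : Equiv.Perm ι) (c : ι) :
    ∃ u : ℕ → α,
      (∀ y, u (y + period s σ (orbit σ (σ c))) = u y) ∧
      (∀ i ∈ orbit σ (σ c), ∃ P, s i = fac u P (s i).length) ∧
      s (σ c) = fac u 0 (s (σ c)).length ∧
      chain s σ (σ c) ((orbit σ (σ c)).card - 1) =
        fac u 0 (period s σ (orbit σ (σ c)) + ov (s c) (s (σ c))) ∧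
      (∀ i ∈ orbit σ (σ c), s i <:+: chain s σ (σ c) ((orbit σ (σ c)).card - 1)) ∧
      (∀ o, (∀ i ∈ orbit σ (σ c), o ≤ ov (s i) (s (σ i))) →
        ∀ x, ∃ i ∈ orbit σ (σ c), fac u x (o + 1) <:+: s i) := by
  obtain ⟨u, hu, hper⟩ := exists_word hne σ (σ c)
  have hcard := card_orbit σ (σ c)
  have hnpos := minPeriod_pos σ (σ c)
  have hpred := iterate_pred σ c
  have hchain := chain_eq_fac hne σ (σ c) u hu (Function.minimalPeriod σ (σ c) - 1)
  rw [hpred] at hchain
  have hT : pos s σ (σ c) (Function.minimalPeriod σ (σ c) - 1) + adv s σ c =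
      period s σ (orbit σ (σ c)) := by
    rw [period_eq]
    obtain ⟨n, hn⟩ : ∃ n, Function.minimalPeriod σ (σ c) = n + 1 :=
      ⟨_, (Nat.succ_pred_eq_of_pos hnpos).symm⟩
    rw [hn] at hpred ⊢
    simp only [Nat.add_sub_cancel] at hpred ⊢
    have := T_succ (⇑σ) (adv s σ) (σ c) n
    rw [hpred] at this
    exact this.symm
  have hadd := adv_add_ov hne σ c
  have hlen : pos s σ (σ c) (Function.minimalPeriod σ (σ c) - 1) + (s c).length =
      period s σ (orbit σ (σ c)) + ov (s c) (s (σ c)) := by omega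
  rw [hcard]
  refine ⟨u, hper, ?_, ?_, ?_, ?_, ?_⟩
  · intro i hi
    obtain ⟨t, -, rfl⟩ := mem_orbit_iff.mp hi
    exact ⟨_, hu t⟩
  · simpa [pos] using hu 0
  · rw [hchain, hlen]
  · intro i hi
    obtain ⟨t, ht, rfl⟩ := mem_orbit_iff.mp hi
    rw [hu t, hchain]
    have hmono := pos_mono hne σ (σ c) (show t ≤ Function.minimalPeriod σ (σ c) - 1 by omega)
    simp only [hpred] at hmono
    have hle : pos s σ (σ c) t + (s ((⇑σ)^[t] (σ c))).length ≤
        pos s σ (σ c) (Function.minimalPeriod σ (σ c) - 1) + (s c).length := hmono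
    exact fac_infix u (Nat.zero_le _) (by simpa using hle)
  · intro o ho x
    have ho' : ∀ t, o + adv s σ ((⇑σ)^[t] (σ c)) ≤ (s ((⇑σ)^[t] (σ c))).length := by
      intro t
      have h1 : (⇑σ)^[t] (σ c) ∈ orbit σ (σ c) := by
        rw [mem_orbit]
        rw [Equiv.Perm.iterate_eq_pow]
        exact ⟨t, by simp⟩
      have h2 := ho _ h1
      have h3 := adv_add_ov hne σ ((⇑σ)^[t] (σ c))
      omega
    obtain ⟨t, ht⟩ := window_occ s (⇑σ) (adv s σ) (σ c) u (adv_pos hne σ) hu o ho' x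
    refine ⟨(⇑σ)^[t] (σ c), ?_, ht⟩
    rw [mem_orbit]
    rw [Equiv.Perm.iterate_eq_pow]
    exact ⟨t, by simp⟩

end Vale.Agent.Lib.P333
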