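import Vale.Agent.Lib.P333.Assemble

/-!
The main bounds: the sum of the lengths of the opened cycles, and a superstring of them.
-/

namespace Vale.Agent.Lib.P333

open Vale.Agent.Lib.P333.WordLemma Vale.Agent.Lib.P333.Cycle

set_option linter.unusedSectionVars false

variable {α : Type*} [DecidableEq α] {ι : Type*} [Fintype ι] [DecidableEq ι]

/-- Every period of the word of a cycle is at least the weight of the cycle. -/
theorem period_le_of_per {s : ι → List α} (hne : ∀ i, s i ≠ [])
    (hfree : ∀ i j, i ≠ j → ¬ s i <:+: s j) {σ : Equiv.Perm ι} (hσ : IsMinCover s σ)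
    {X : Finset ι} (hX : X ∈ cycles σ) (u : ℕ → α) (hu : ∀ i ∈ X, ∃ P, s i = fac u P (s i).length)
    (q : ℕ) (hq : 0 < q) (hper : ∀ y, u (y + q) = u y) : period s σ X ≤ q := by
  choose! P hP using hu
  exact sum_le_of_common_seq hne hfree hσ X (fun i hi => (orbit_invariant hX).mpr hi)
    (fun i hi => (orbit_invariant hX).mp hi) u q hq hper P hP

/-- The words of two different cycles are not shifts of each other. -/
theorem not_shift {s : ι → List α} (hne : ∀ i, s i ≠ [])
    (hfree : ∀ i j, i ≠ j → ¬ s i <:+: s j) {σ : Equiv.Perm ι} (hσ : IsMinCover s σ)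
    {X Y : Finset ι} (hX : X ∈ cycles σ) (hY : Y ∈ cycles σ) (hXY : X ≠ Y) (u v : ℕ → α)
    (hu : ∀ i ∈ X, ∃ P, s i = fac u P (s i).length)
    (hv : ∀ i ∈ Y, ∃ P, s i = fac v P (s i).length)
    (hper : ∀ y, u (y + period s σ X) = u y) (t : ℕ) (hshift : ∀ n, u (n + t) = v n) : False := by
  have huv : ∀ i ∈ X ∪ Y, ∃ P, s i = fac u P (s i).length := by
    intro i hi
    rcases Finset.mem_union.mp hi with h | h
    · exact hu i h
    · obtain ⟨P, hP⟩ := hv i h
      refine ⟨P + t, ?_⟩
      rw [hP]
      simp only [fac_length]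
      apply fac_ext
      intro j _
      have : P + t + j = P + j + t := by omega
      rw [this, hshift]
  choose! P hP using huv
  have h1 : ∀ i ∈ X ∪ Y, σ i ∈ X ∪ Y := by
    intro i hi
    rcases Finset.mem_union.mp hi with h | h
    · exact Finset.mem_union_left _ ((orbit_invariant hX).mpr h)
    · exact Finset.mem_union_right _ ((orbit_invariant hY).mpr h)
  have h2 : ∀ i, σ i ∈ X ∪ Y → i ∈ X ∪ Y := by
    intro i hi
    rcases Finset.mem_union.mp hi with h | h
    · exact Finset.mem_union_left _ ((orbit_invariant hX).mp h)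
    · exact Finset.mem_union_right _ ((orbit_invariant hY).mp h)
  have hs := sum_le_of_common_seq hne hfree hσ (X ∪ Y) h1 h2 u (period s σ X)
    (period_pos hne hX) hper P hP
  rw [Finset.sum_union (cycles_disjoint hX hY hXY)] at hs
  have hpY := period_pos (s := s) hne hY
  unfold period at hpY hs
  omega

variable {s : ι → List α} {σ : Equiv.Perm ι} {cut : Finset ι → ι}

theorem orbit_cut (hcut : IsWeakestCut s σ cut) {X : Finset ι} (hX : X ∈ cycles σ) :
    orbit σ (σ (cut X)) = X := by
  rw [orbit_map]
  exact orbit_of_mem hX (hcut X hX).1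

/-- The word lemma for the cycles: with `o X` the smallest overlap of `X`,
`∑ (o X + 2 - π X) ≤ |Ω|`, with truncated subtraction. -/
theorem sum_overlap_le (hne : ∀ i, s i ≠ []) (hfree : ∀ i j, i ≠ j → ¬ s i <:+: s j)
    (hσ : IsMinCover s σ) (hcut : IsWeakestCut s σ cut) {Ω : List α} (hΩ : IsSuperstring s Ω) :
    ∑ X ∈ cycles σ, (ov (s (cut X)) (s (σ (cut X))) + 2 - period s σ X) ≤ Ω.length := by
  choose U hU1 hU2 hU3 hU4 hU5 hU6 using exists_cycle_data (s := s) hne σ
  have hor : ∀ X ∈ cycles σ, orbit σ (σ (cut X)) = X := fun X hX => orbit_cut hcut hX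
  have := word_lemma (cycles σ) Ω (fun X => U (cut X)) (period s σ)
    (fun X => ov (s (cut X)) (s (σ (cut X))) + 1)
    (fun X hX => period_pos hne hX)
    (fun X hX n => by
      have h := hU1 (cut X) n
      rwa [hor X hX] at h)
    (fun X hX q hq hper => by
      have h := hU2 (cut X)
      rw [hor X hX] at h
      exact period_le_of_per hne hfree hσ hX _ h q hq hper)
    (fun X hX Y hY hXY t hshift => by
      have h1 := hU2 (cut X)
      have h2 := hU2 (cut Y)
      have h3 := hU1 (cut X)
      rw [hor X hX] at h1 h3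
      rw [hor Y hY] at h2
      exact not_shift hne hfree hσ hX hY hXY _ _ h1 h2 h3 t hshift)
    (fun X hX x => by
      have h := hU6 (cut X)
      rw [hor X hX] at h
      obtain ⟨i, -, hi⟩ := h _ (hcut X hX).2 x
      exact hi.trans (hΩ i))
  simpa [Nat.add_assoc] using this

/-- Opening a cycle: all its strings are in the result, whose length is the weight of the cycle
plus the overlap at the weakest arc. -/
theorem opened_spec (hne : ∀ i, s i ≠ []) (hcut : IsWeakestCut s σ cut) {X : Finset ι}
    (hX : X ∈ cycles σ) :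
    (∀ i ∈ X, s i <:+: opened s σ cut X) ∧
      (opened s σ cut X).length = period s σ X + ov (s (cut X)) (s (σ (cut X))) := by
  obtain ⟨u, -, -, -, h4, h5, -⟩ := exists_cycle_data (s := s) hne σ (cut X)
  rw [orbit_cut hcut hX] at h4 h5
  unfold opened
  refine ⟨h5, ?_⟩
  rw [h4]
  simp

/-- The sum of the lengths of the opened cycles. -/
theorem sum_opened_le (hne : ∀ i, s i ≠ []) (hfree : ∀ i j, i ≠ j → ¬ s i <:+: s j)
    (hσ : IsMinCover s σ) (hcut : IsWeakestCut s σ cut) {Ω : List α} (hΩ : IsSuperstring s Ω) :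
    ∑ X ∈ cycles σ, (opened s σ cut X).length + 2 * (cycles σ).card ≤
      Ω.length + 2 * coverCost s σ := by
  have h := sum_overlap_le hne hfree hσ hcut hΩ
  rw [← sum_period]
  have h1 : ∑ X ∈ cycles σ, ((opened s σ cut X).length + 2) ≤
      ∑ X ∈ cycles σ, ((ov (s (cut X)) (s (σ (cut X))) + 2 - period s σ X) +
        2 * period s σ X) := by
    apply Finset.sum_le_sum
    intro X hX
    rw [(opened_spec hne hcut hX).2]
    omega
  rw [Finset.sum_add_distrib, Finset.sum_add_distrib, ← Finset.mul_sum] at h1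
  simp only [Finset.sum_const, smul_eq_mul] at h1
  omega

/-- A common superstring of the opened cycles at most the weight of the cover longer than a given
superstring of the family. -/
theorem exists_superstring_opened (hne : ∀ i, s i ≠ []) (hfree : ∀ i j, i ≠ j → ¬ s i <:+: s j)
    (hcut : IsWeakestCut s σ cut) {Ω : List α} (hΩ : IsSuperstring s Ω) :
    ∃ Ω' : List α, (∀ X ∈ cycles σ, opened s σ cut X <:+: Ω') ∧
      Ω'.length ≤ Ω.length + coverCost s σ := by
  choose U hU1 hU2 hU3 hU4 hU5 hU6 using exists_cycle_data (s := s) hne σ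
  have hor : ∀ X ∈ cycles σ, orbit σ (σ (cut X)) = X := fun X hX => orbit_cut hcut hX
  let ι' := {X // X ∈ cycles σ}
  let w : ι' → List α := fun X => s (σ (cut X.1))
  let e : ι' → List α := fun X =>
    fac (U (cut X.1)) 0 ((w X).length + period s σ X.1)
  have hw : ∀ i j : ι', i ≠ j → ¬ w i <:+: w j := by
    intro i j hij
    apply hfree
    intro h
    have m1 : σ (cut i.1) ∈ i.1 := (orbit_invariant i.2).mpr (hcut i.1 i.2).1
    have m2 : σ (cut i.1) ∈ j.1 := by
      rw [h]
      exact (orbit_invariant j.2).mpr (hcut j.1 j.2).1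
    exact Finset.disjoint_left.mp (cycles_disjoint i.2 j.2 (fun h' => hij (Subtype.ext h'))) m1 m2
  obtain ⟨Ω', hlen, hΩ'⟩ := Replace.exists_superstring_of_extensions Ω w e
    (fun X => hΩ _) hw
    (fun X => by
      show s (σ (cut X.1)) <+: fac _ 0 _
      conv_lhs => rw [hU3 (cut X.1)]
      exact fac_prefix _ 0 (Nat.le_add_right _ _))
    (fun X => by
      show s (σ (cut X.1)) <:+ fac _ 0 _
      have hper := hU1 (cut X.1)
      rw [hor X.1 X.2] at hper
      rw [Nat.add_comm, fac_add]
      conv_lhs => rw [hU3 (cut X.1)]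
      have := fac_shift_per hper 0 (w X).length
      simp only [Nat.zero_add] at this ⊢
      rw [this]
      exact List.suffix_append _ _)
  refine ⟨Ω', ?_, ?_⟩
  · intro X hX
    have h1 := hΩ' ⟨X, hX⟩
    have h4 := hU4 (cut X)
    rw [hor X hX] at h4
    unfold opened
    rw [h4]
    refine List.IsInfix.trans ?_ h1
    apply List.IsPrefix.isInfix
    apply fac_prefix
    have hov := ov_le_right (s (σ (cut X))) (hne (cut X))
    show period s σ X + ov (s (cut X)) (s (σ (cut X))) ≤ (s (σ (cut X))).length + period s σ X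
    omega
  · have h2 : ∑ i : ι', (e i).length = ∑ i : ι', ((w i).length + period s σ i.1) := by
      apply Finset.sum_congr rfl
      intro i _
      simp [e]
    rw [h2, Finset.sum_add_distrib] at hlen
    have h3 : ∑ i : ι', period s σ i.1 = coverCost s σ := by
      rw [← sum_period]
      exact Finset.sum_coe_sort (cycles σ) (period s σ)
    omega

end Vale.Agent.Lib.P333
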