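import Vale.Agent.Lib.P333.Cycle
import Vale.Agent.Lib.P333.Ov

/-!
The periodic sequence of a cycle of a cover, in terms of `orbit`, `period`, `ov` and `chain`.
-/

namespace Vale.Agent.Lib.P333

variable {α ι : Type*} [DecidableEq α] [Fintype ι] [DecidableEq ι]

/-- The orbit of `h` is the image of the first `m` iterates, `m` the minimal period. -/
theorem orbit_spec (σ : Equiv.Perm ι) (h : ι) :
    0 < Function.minimalPeriod σ h ∧
    (⇑σ)^[Function.minimalPeriod σ h] h = h ∧
    Set.InjOn (fun t => (⇑σ)^[t] h) (Finset.range (Function.minimalPeriod σ h)) ∧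
    orbit σ h = (Finset.range (Function.minimalPeriod σ h)).image (fun t => (⇑σ)^[t] h) ∧
    (orbit σ h).card = Function.minimalPeriod σ h := by
  have hper : h ∈ Function.periodicPts (⇑σ) := by
    refine Function.mk_mem_periodicPts (n := orderOf σ) (orderOf_pos σ) ?_
    show (⇑σ)^[orderOf σ] h = h
    rw [Equiv.Perm.iterate_eq_pow, pow_orderOf_eq_one]
    rfl
  have hpos := Function.minimalPeriod_pos_of_mem_periodicPts hper
  have hfix : (⇑σ)^[Function.minimalPeriod σ h] h = h := Function.iterate_minimalPeriod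
  have hinj : Set.InjOn (fun t => (⇑σ)^[t] h) (Finset.range (Function.minimalPeriod σ h)) := by
    intro a ha b hb hab
    have ha' : a ∈ Set.Iio (Function.minimalPeriod σ h) := by simpa using ha
    have hb' : b ∈ Set.Iio (Function.minimalPeriod σ h) := by simpa using hb
    exact Function.iterate_injOn_Iio_minimalPeriod ha' hb' hab
  have himg : orbit σ h = (Finset.range (Function.minimalPeriod σ h)).image
      (fun t => (⇑σ)^[t] h) := by
    ext j
    simp only [orbit, Finset.mem_filter, Finset.mem_univ, true_and, Finset.mem_image,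
      Finset.mem_range]
    constructor
    · intro hj
      obtain ⟨i, -, hi⟩ := hj.exists_pow_eq'
      refine ⟨i % Function.minimalPeriod σ h, Nat.mod_lt _ hpos, ?_⟩
      rw [Function.iterate_mod_minimalPeriod_eq, Equiv.Perm.iterate_eq_pow]
      exact hi
    · rintro ⟨t, -, rfl⟩
      exact ⟨t, by rw [zpow_natCast, Equiv.Perm.iterate_eq_pow]⟩
  refine ⟨hpos, hfix, hinj, himg, ?_⟩
  rw [himg, Finset.card_image_of_injOn hinj, Finset.card_range]

/-- The position of the string number `t` on the orbit of `h`. -/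
def pos (s : ι → List α) (σ : Equiv.Perm ι) (h : ι) (t : ℕ) : ℕ :=
  Cycle.T σ (fun i => dist s i (σ i)) h t

theorem period_eq_pos (s : ι → List α) (σ : Equiv.Perm ι) (h : ι) :
    period s σ (orbit σ h) = pos s σ h (orbit σ h).card := by
  obtain ⟨-, -, hinj, himg, hcard⟩ := orbit_spec σ h
  rw [hcard]
  unfold period pos Cycle.T
  rw [himg, Finset.sum_image hinj]

theorem ov_getElem? {s : ι → List α} (hne : ∀ i, s i ≠ []) (σ : Equiv.Perm ι) (i : ι) (j : ℕ)
    (h1 : dist s i (σ i) ≤ j) (h2 : j < (s i).length) :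
    (s i)[j]? = (s (σ i))[j - dist s i (σ i)]? := by
  have hspec := ov_spec (s (σ i)) (hne i)
  have hadd := dist_add_ov hne i (σ i)
  have e1 : (s i).length - ov (s i) (s (σ i)) = dist s i (σ i) := by omega
  rw [e1] at hspec
  have h3 : ((s i).drop (dist s i (σ i)))[j - dist s i (σ i)]? = (s i)[j]? := by
    rw [List.getElem?_drop]
    congr 1
    omega
  rw [← h3, hspec, List.getElem?_take_of_lt (by omega)]

/-- **The periodic sequence of a cycle.** -/
theorem exists_cycle_seq {s : ι → List α} (hne : ∀ i, s i ≠ []) (σ : Equiv.Perm ι) (h : ι) :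
    ∃ u : ℕ → α,
      (∀ y, u (y + period s σ (orbit σ h)) = u y) ∧
      (∀ t, s ((σ ^ t) h) = fac u (pos s σ h t) (s ((σ ^ t) h)).length) ∧
      (∀ j ∈ orbit σ h, ∃ x, s j = fac u x (s j).length) ∧
      s h = fac u 0 (s h).length ∧
      (∀ o, (∀ j ∈ orbit σ h, o ≤ ov (s j) (s (σ j))) →
        ∀ x, ∃ j ∈ orbit σ h, fac u x (o + 1) <:+: s j) ∧
      (∀ t, chain s σ h t = fac u 0 (pos s σ h t + (s ((σ ^ t) h)).length)) ∧
      chain s σ h ((orbit σ h).card - 1) =
        fac u 0 (period s σ (orbit σ h) + ov (s (σ⁻¹ h)) (s h)) ∧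
      (∀ j ∈ orbit σ h, s j <:+: chain s σ h ((orbit σ h).card - 1)) := by
  classical
  obtain ⟨hmpos, hfix, hinj, himg, hcard⟩ := orbit_spec σ h
  set m := Function.minimalPeriod σ h with hm
  let d : ι → ℕ := fun i => dist s i (σ i)
  have hd1 : ∀ i, 0 < d i := fun i => dist_pos hne i (σ i)
  have hd2 : ∀ i, d i ≤ (s i).length := fun i => dist_le_length s i (σ i)
  obtain ⟨u, hseq, hper⟩ := Cycle.exists_seq s σ d h m hd1 hd2
    (fun i j h1 h2 => ov_getElem? hne σ i j h1 h2) hfix
  have hperiod : period s σ (orbit σ h) = Cycle.T σ d h m := by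
    rw [period_eq_pos, hcard]
    rfl
  have hseq' : ∀ t, s ((σ ^ t) h) = fac u (pos s σ h t) (s ((σ ^ t) h)).length := hseq
  have hmem : ∀ j ∈ orbit σ h, ∃ t, t < m ∧ j = (σ ^ t) h := by
    intro j hj
    rw [himg] at hj
    obtain ⟨t, ht, rfl⟩ := Finset.mem_image.mp hj
    exact ⟨t, Finset.mem_range.mp ht, rfl⟩
  have hchain : ∀ t, chain s σ h t = fac u 0 (pos s σ h t + (s ((σ ^ t) h)).length) := by
    intro t
    induction t with
    | zero =>
      have h0 : pos s σ h 0 = 0 := by simp [pos]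
      have h1 := hseq' 0
      simp only [pow_zero, Equiv.Perm.coe_one, id_eq, h0] at h1
      simp only [chain, pow_zero, Equiv.Perm.coe_one, id_eq, h0, Nat.zero_add]
      exact h1
    | succ t ih =>
      have hs : (σ ^ (t + 1)) h = σ ((σ ^ t) h) := by
        rw [pow_succ']
        rfl
      have hpos : pos s σ h (t + 1) = pos s σ h t + d ((σ ^ t) h) := Cycle.T_succ _ _ _ _
      have hadd := dist_add_ov hne ((σ ^ t) h) (σ ((σ ^ t) h))
      have hle := ov_le_right (s (σ ((σ ^ t) h))) (hne ((σ ^ t) h))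
      simp only [chain]
      rw [ih, hs]
      have h2 := hseq' (t + 1)
      rw [hs, hpos] at h2
      have hdval : d ((σ ^ t) h) = dist s ((σ ^ t) h) (σ ((σ ^ t) h)) := rfl
      set O := ov (s ((σ ^ t) h)) (s (σ ((σ ^ t) h))) with hO
      set L := (s (σ ((σ ^ t) h))).length with hL
      obtain ⟨R, hR⟩ : ∃ R, L = O + R := ⟨L - O, by omega⟩
      have h3 : (s (σ ((σ ^ t) h))).drop O =
          fac u (pos s σ h t + d ((σ ^ t) h) + O) R := by
        rw [h2, hR, fac_add]
        simp
      rw [h3, hpos]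
      have e1 : pos s σ h t + d ((σ ^ t) h) + O = 0 + (pos s σ h t + (s ((σ ^ t) h)).length) := by
        omega
      rw [e1, ← fac_add]
      congr 1
      omega
  have hlast : (σ ^ (m - 1)) h = σ⁻¹ h := by
    have h1 : σ ((σ ^ (m - 1)) h) = h := by
      have h2 : (σ ^ (m - 1 + 1)) h = h := by
        have e : m - 1 + 1 = m := by omega
        rw [e]
        exact hfix
      rw [pow_succ'] at h2
      exact h2
    rw [Equiv.Perm.eq_inv_iff_eq]
    exact h1
  have hsm : σ (σ⁻¹ h) = h := by simp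
  have hend : ∀ t t', t ≤ t' → pos s σ h t + (s ((σ ^ t) h)).length ≤
      pos s σ h t' + (s ((σ ^ t') h)).length := by
    intro t t' htt'
    have h1 := Cycle.end_mono s σ d h (fun i => by
      have hadd := dist_add_ov hne i (σ i)
      have hle := ov_le_right (s (σ i)) (hne i)
      show (s i).length ≤ dist s i (σ i) + (s (σ i)).length
      omega) htt'
    exact h1
  refine ⟨u, ?_, hseq', ?_, ?_, ?_, hchain, ?_, ?_⟩
  · rw [hperiod]
    exact hper
  · intro j hj
    obtain ⟨t, -, rfl⟩ := hmem j hj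
    exact ⟨_, hseq' t⟩
  · have h1 := hseq' 0
    have h0 : pos s σ h 0 = 0 := by simp [pos]
    simpa only [pow_zero, Equiv.Perm.coe_one, id_eq, h0] using h1
  · intro o ho x
    have ho' : ∀ t, o + d ((⇑σ)^[t] h) ≤ (s ((⇑σ)^[t] h)).length := by
      intro t
      have hj : (⇑σ)^[t] h ∈ orbit σ h := by
        rw [himg, ← Function.iterate_mod_minimalPeriod_eq]
        exact Finset.mem_image.mpr ⟨t % m, Finset.mem_range.mpr (Nat.mod_lt _ hmpos), rfl⟩
      have h1 := ho _ hj
      have h2 := dist_add_ov hne ((⇑σ)^[t] h) (σ ((⇑σ)^[t] h))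
      show o + dist s ((⇑σ)^[t] h) (σ ((⇑σ)^[t] h)) ≤ _
      omega
    obtain ⟨t, ht⟩ := Cycle.window_occ s σ d h u hd1 hseq o ho' x
    refine ⟨(⇑σ)^[t] h, ?_, ht⟩
    rw [himg, ← Function.iterate_mod_minimalPeriod_eq]
    exact Finset.mem_image.mpr ⟨t % m, Finset.mem_range.mpr (Nat.mod_lt _ hmpos), rfl⟩
  · rw [hcard, hchain (m - 1), hlast, hperiod]
    congr 1
    have e : m = m - 1 + 1 := by omega
    have h1 : Cycle.T σ d h m = pos s σ h (m - 1) + d ((σ ^ (m - 1)) h) := by
      conv_lhs => rw [e]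
      exact Cycle.T_succ _ _ _ _
    rw [h1, hlast]
    have h2 := dist_add_ov hne (σ⁻¹ h) (σ (σ⁻¹ h))
    rw [hsm] at h2
    have h3 : d (σ⁻¹ h) = dist s (σ⁻¹ h) h := by
      show dist s (σ⁻¹ h) (σ (σ⁻¹ h)) = _
      rw [hsm]
    rw [h3]
    omega
  · intro j hj
    obtain ⟨t, ht, rfl⟩ := hmem j hj
    rw [hcard, hchain (m - 1), hseq' t]
    apply fac_infix u (Nat.zero_le _)
    have := hend t (m - 1) (by omega)
    omega

end Vale.Agent.Lib.P333
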