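import Mathlib

/-!
Definitions for the shortest common superstring problem: overlaps, cycle covers,
cycles of a cover, and the string obtained by opening a cycle.
-/

namespace Vale.Agent.Lib.P333

variable {α : Type*} [DecidableEq α]

/-- `ov a b`: the length of the longest proper suffix of `a` that is a prefix of `b`. -/
def ov (a b : List α) : ℕ :=
  ((Finset.range a.length).filter (fun k => a.drop (a.length - k) = b.take k)).sup id

variable {ι : Type*} [Fintype ι] [DecidableEq ι]

/-- `Ω` is a common superstring of the family `s`. -/
def IsSuperstring (s : ι → List α) (Ω : List α) : Prop := ∀ i, s i <:+: Ω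

/-- The distance (weight) of the arc from `s i` to `s j`: `|s i| - ov (s i) (s j)`. -/
def dist (s : ι → List α) (i j : ι) : ℕ := (s i).length - ov (s i) (s j)

/-- The weight of the cycle cover given by the permutation `σ`. -/
def coverCost (s : ι → List α) (σ : Equiv.Perm ι) : ℕ := ∑ i, dist s i (σ i)

/-- `σ` is a minimum weight cycle cover. -/
def IsMinCover (s : ι → List α) (σ : Equiv.Perm ι) : Prop := ∀ τ, coverCost s σ ≤ coverCost s τ

/-- The set of indices in the cycle of `σ` through `i`. -/
def orbit (σ : Equiv.Perm ι) (i : ι) : Finset ι := Finset.univ.filter (fun j => σ.SameCycle i j)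

/-- The cycles of `σ`, as sets of indices (fixed points are cycles too). -/
def cycles (σ : Equiv.Perm ι) : Finset (Finset ι) := Finset.univ.image (orbit σ)

/-- The period of a cycle: the sum of the weights of its arcs. -/
def period (s : ι → List α) (σ : Equiv.Perm ι) (X : Finset ι) : ℕ := ∑ i ∈ X, dist s i (σ i)

/-- The smallest overlap on an arc of a cycle: the weakest arc. -/
noncomputable def minOv (s : ι → List α) (σ : Equiv.Perm ι) (X : Finset ι) : ℕ :=
  sInf ((fun i => ov (s i) (s (σ i))) '' (X : Set ι))

/-- The merge of the strings `s h, s (σ h), ..., s (σ^t h)` along their overlaps. -/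
def chain (s : ι → List α) (σ : Equiv.Perm ι) (h : ι) : ℕ → List α
  | 0 => s h
  | t + 1 => chain s σ h t ++ (s ((σ ^ (t + 1)) h)).drop (ov (s ((σ ^ t) h)) (s ((σ ^ (t + 1)) h)))

/-- `cut` picks in every cycle an arc of smallest overlap: the tail of a weakest arc. -/
def IsWeakestCut (s : ι → List α) (σ : Equiv.Perm ι) (cut : Finset ι → ι) : Prop :=
  ∀ X ∈ cycles σ, cut X ∈ X ∧ ∀ j ∈ X, ov (s (cut X)) (s (σ (cut X))) ≤ ov (s j) (s (σ j))

/-- The string obtained by opening the cycle `X` at the chosen weakest arc: the merge of all the
strings of the cycle, in cycle order, starting right after the weakest arc. -/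
def opened (s : ι → List α) (σ : Equiv.Perm ι) (cut : Finset ι → ι) (X : Finset ι) : List α :=
  chain s σ (σ (cut X)) (X.card - 1)

end Vale.Agent.Lib.P333
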