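import Vale.Agent.Lib.P333.Defs

/-!
Orbits of a permutation of a finite type, as sets and as iterates.
-/

namespace Vale.Agent.Lib.P333

set_option linter.unusedSectionVars false

variable {ι : Type*} [Fintype ι] [DecidableEq ι]

theorem self_mem_orbit (σ : Equiv.Perm ι) (h : ι) : h ∈ orbit σ h :=
  Finset.mem_filter.mpr ⟨Finset.mem_univ _, Equiv.Perm.SameCycle.refl σ h⟩

theorem mem_orbit {σ : Equiv.Perm ι} {h j : ι} : j ∈ orbit σ h ↔ σ.SameCycle h j := by
  simp [orbit]

theorem orbit_eq_of_sameCycle {σ : Equiv.Perm ι} {h j : ι} (hj : σ.SameCycle h j) :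
    orbit σ j = orbit σ h := by
  ext k
  simp only [mem_orbit]
  exact ⟨fun hk => hj.trans hk, fun hk => hj.symm.trans hk⟩

theorem orbit_map (σ : Equiv.Perm ι) (h : ι) : orbit σ (σ h) = orbit σ h :=
  orbit_eq_of_sameCycle (Equiv.Perm.sameCycle_apply_right.mpr (Equiv.Perm.SameCycle.refl _ _))

theorem orbit_invariant {σ : Equiv.Perm ι} {X : Finset ι} (hX : X ∈ cycles σ) {i : ι} :
    σ i ∈ X ↔ i ∈ X := by
  obtain ⟨h, -, rfl⟩ := Finset.mem_image.mp hX
  simp only [mem_orbit]
  exact Equiv.Perm.sameCycle_apply_right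

theorem orbit_of_mem {σ : Equiv.Perm ι} {X : Finset ι} (hX : X ∈ cycles σ) {i : ι} (hi : i ∈ X) :
    orbit σ i = X := by
  obtain ⟨h, -, rfl⟩ := Finset.mem_image.mp hX
  exact orbit_eq_of_sameCycle (mem_orbit.mp hi)

theorem orbit_mem_cycles (σ : Equiv.Perm ι) (h : ι) : orbit σ h ∈ cycles σ :=
  Finset.mem_image.mpr ⟨h, Finset.mem_univ _, rfl⟩

theorem cycles_nonempty {σ : Equiv.Perm ι} {X : Finset ι} (hX : X ∈ cycles σ) : X.Nonempty := by
  obtain ⟨h, -, rfl⟩ := Finset.mem_image.mp hX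
  exact ⟨h, self_mem_orbit σ h⟩

theorem cycles_disjoint {σ : Equiv.Perm ι} {X Y : Finset ι} (hX : X ∈ cycles σ) (hY : Y ∈ cycles σ)
    (hXY : X ≠ Y) : Disjoint X Y := by
  rw [Finset.disjoint_left]
  intro i hiX hiY
  exact hXY ((orbit_of_mem hX hiX).symm.trans (orbit_of_mem hY hiY))

/-- A function sums over all cycles to its sum over all indices. -/
theorem sum_cycles {M : Type*} [AddCommMonoid M] (σ : Equiv.Perm ι) (g : ι → M) :
    ∑ X ∈ cycles σ, ∑ i ∈ X, g i = ∑ i, g i := by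
  have hdis : ((cycles σ : Finset (Finset ι)) : Set (Finset ι)).PairwiseDisjoint id := by
    intro X hX Y hY hXY
    exact cycles_disjoint hX hY hXY
  have hU : (cycles σ).biUnion id = Finset.univ := by
    ext i
    simp only [Finset.mem_biUnion, Finset.mem_univ, iff_true]
    exact ⟨orbit σ i, orbit_mem_cycles σ i, self_mem_orbit σ i⟩
  rw [← hU, Finset.sum_biUnion hdis]
  rfl

theorem minPeriod_pos (σ : Equiv.Perm ι) (h : ι) : 0 < Function.minimalPeriod σ h := by
  apply Function.minimalPeriod_pos_of_mem_periodicPts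
  have : Function.IsPeriodicPt (⇑σ) (orderOf σ) h := by
    show (⇑σ)^[orderOf σ] h = h
    rw [Equiv.Perm.iterate_eq_pow, pow_orderOf_eq_one]
    rfl
  exact ⟨orderOf σ, orderOf_pos σ, this⟩

theorem iterate_minPeriod (σ : Equiv.Perm ι) (h : ι) :
    (⇑σ)^[Function.minimalPeriod σ h] h = h :=
  Function.iterate_minimalPeriod

theorem mem_orbit_iff {σ : Equiv.Perm ι} {h j : ι} :
    j ∈ orbit σ h ↔ ∃ t < Function.minimalPeriod σ h, (⇑σ)^[t] h = j := by
  rw [mem_orbit]
  constructor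
  · intro hj
    obtain ⟨t, -, ht⟩ := hj.exists_pow_eq'
    refine ⟨t % Function.minimalPeriod σ h, Nat.mod_lt _ (minPeriod_pos σ h), ?_⟩
    rw [Function.iterate_mod_minimalPeriod_eq, Equiv.Perm.iterate_eq_pow]
    exact ht
  · rintro ⟨t, -, rfl⟩
    rw [Equiv.Perm.iterate_eq_pow]
    exact ⟨t, by simp⟩

theorem orbit_eq_image (σ : Equiv.Perm ι) (h : ι) :
    orbit σ h = (Finset.range (Function.minimalPeriod σ h)).image (fun t => (⇑σ)^[t] h) := by
  ext j
  rw [mem_orbit_iff]
  simp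

theorem iterate_injOn (σ : Equiv.Perm ι) (h : ι) :
    Set.InjOn (fun t => (⇑σ)^[t] h) (Finset.range (Function.minimalPeriod σ h) : Set ℕ) := by
  intro a ha b hb hab
  have ha' : a < Function.minimalPeriod σ h := by simpa using ha
  have hb' : b < Function.minimalPeriod σ h := by simpa using hb
  exact (Function.iterate_eq_iterate_iff_of_lt_minimalPeriod ha' hb').mp hab

theorem card_orbit (σ : Equiv.Perm ι) (h : ι) :
    (orbit σ h).card = Function.minimalPeriod σ h := by
  rw [orbit_eq_image, Finset.card_image_of_injOn (iterate_injOn σ h), Finset.card_range]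

theorem sum_orbit {M : Type*} [AddCommMonoid M] (σ : Equiv.Perm ι) (h : ι) (g : ι → M) :
    ∑ i ∈ orbit σ h, g i =
      ∑ t ∈ Finset.range (Function.minimalPeriod σ h), g ((⇑σ)^[t] h) := by
  rw [orbit_eq_image, Finset.sum_image (iterate_injOn σ h)]

end Vale.Agent.Lib.P333
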