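import Vale.Agent.Lib.P333.Defs

/-!
Merging a list of strings along an order: the superstring that a Hamiltonian path of the overlap
graph stands for, and the total overlap of the path.
-/

namespace Vale.Agent.Lib.P333

variable {α : Type*} [DecidableEq α]

/-- The merge of a list of strings, in list order, along the overlaps of consecutive strings. -/
def mergeAll : List (List α) → List α
  | [] => []
  | [a] => a
  | a :: b :: L => a ++ (mergeAll (b :: L)).drop (ov a b)

/-- The total overlap along a list of strings: the sum of the overlaps of consecutive strings. -/
def pathOv : List (List α) → ℕ
  | [] => 0
  | [_] => 0
  | a :: b :: L => ov a b + pathOv (b :: L)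

end Vale.Agent.Lib.P333
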