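import Vale.Agent.Lib.P333.Bound
import Vale.Agent.Lib.P333.OrderDefs

/-!
Merging along an order: the merge contains all strings and its length is the total length minus
the total overlap; a superstring of a factor free family gives an order (by position) whose
compression is at least that of the superstring; the opened cycles of a minimum cover are factor
free; and the final bound `(3 - δ) |Ω|` for a `δ`-approximately best order.
-/

namespace Vale.Agent.Lib.P333

open Vale.Agent.Lib.P333.Replace

set_option linter.unusedSectionVars false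

section lists

variable {α : Type*} [DecidableEq α]

theorem prefix_mergeAll (a : List α) (L : List (List α)) : a <+: mergeAll (a :: L) := by
  cases L with
  | nil => exact List.prefix_refl a
  | cons b L => exact List.prefix_append _ _

/-- The merge of `a :: b :: L` ends with the merge of `b :: L`. -/
theorem mergeAll_cons_cons {a : List α} (ha : a ≠ []) (b : List α) (L : List (List α)) :
    mergeAll (a :: b :: L) = a.take (a.length - ov a b) ++ mergeAll (b :: L) := by
  have h1 : mergeAll (a :: b :: L) = a ++ (mergeAll (b :: L)).drop (ov a b) := rfl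
  have hle := ov_le_right b ha
  have hp : (mergeAll (b :: L)).take (ov a b) = b.take (ov a b) := by
    obtain ⟨t, ht⟩ := prefix_mergeAll b L
    rw [← ht, List.take_append_of_le_length hle]
  have hs := ov_spec b ha
  have h2 : a = a.take (a.length - ov a b) ++ (mergeAll (b :: L)).take (ov a b) := by
    rw [hp, ← hs, List.take_append_drop]
  conv_rhs => rw [← List.take_append_drop (ov a b) (mergeAll (b :: L)), ← List.append_assoc, ← h2]
  exact h1

theorem infix_mergeAll (L : List (List α)) (hL : ∀ x ∈ L, x ≠ []) :
    ∀ x ∈ L, x <:+: mergeAll L := by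
  induction L with
  | nil => simp
  | cons a L ih =>
    intro x hx
    rcases List.mem_cons.mp hx with rfl | hx
    · exact (prefix_mergeAll x L).isInfix
    · cases L with
      | nil => simp at hx
      | cons b L =>
        have h1 := ih (fun y hy => hL y (List.mem_cons_of_mem _ hy)) x hx
        rw [mergeAll_cons_cons (hL a List.mem_cons_self)]
        exact h1.trans (List.suffix_append _ _).isInfix

theorem length_mergeAll (L : List (List α)) (hL : ∀ x ∈ L, x ≠ []) :
    (mergeAll L).length + pathOv L = (L.map List.length).sum := by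
  induction L with
  | nil => simp [mergeAll, pathOv]
  | cons a L ih =>
    cases L with
    | nil => simp [mergeAll, pathOv]
    | cons b L =>
      have hih := ih (fun y hy => hL y (List.mem_cons_of_mem _ hy))
      have ha : a ≠ [] := hL a List.mem_cons_self
      have hle : ov a b ≤ (mergeAll (b :: L)).length :=
        (ov_le_right b ha).trans (prefix_mergeAll b L).length_le
      have h1 : (mergeAll (a :: b :: L)).length =
          a.length + ((mergeAll (b :: L)).length - ov a b) := by
        show (a ++ (mergeAll (b :: L)).drop (ov a b)).length = _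
        simp
      have h2 : pathOv (a :: b :: L) = ov a b + pathOv (b :: L) := rfl
      rw [h1, h2, List.map_cons, List.sum_cons]
      omega

theorem occAt_getElem?_add {T w : List α} {p i : ℕ} (h : OccAt T w p) (hi : i < w.length) :
    T[p + i]? = w[i]? := by
  obtain ⟨A, B, rfl, rfl⟩ := h
  rw [List.append_assoc, List.getElem?_append_right (by omega)]
  simp only [Nat.add_sub_cancel_left]
  rw [List.getElem?_append_left hi]

/-- Two occurrences, the second starting later and ending later: the overlap is at least the
length of their common part. -/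
theorem le_ov_of_occ {Ω x y : List α} {p q : ℕ} (hx : OccAt Ω x p) (hy : OccAt Ω y q)
    (hpq : p < q) (hend : p + x.length < q + y.length) : p + x.length ≤ q + ov x y := by
  by_cases h : p + x.length ≤ q
  · omega
  have hk1 : p + x.length - q < x.length := by omega
  have hk2 : p + x.length - q ≤ y.length := by omega
  have heq : x.drop (x.length - (p + x.length - q)) = y.take (p + x.length - q) := by
    apply List.ext_getElem?
    intro n
    rw [List.getElem?_drop]
    by_cases hn : n < p + x.length - q
    · rw [List.getElem?_take_of_lt hn]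
      have h1 := occAt_getElem?_add hx (i := x.length - (p + x.length - q) + n) (by omega)
      have h2 := occAt_getElem?_add hy (i := n) (by omega)
      rw [← h1, ← h2]
      congr 1
      omega
    · rw [List.getElem?_take, if_neg hn]
      exact List.getElem?_eq_none (by omega)
  have := le_ov hk1 heq
  omega

/-- A superstring of a factor free family gives an order of the family whose total overlap is at
least the compression of the superstring. -/
theorem exists_order {J : Type*} [DecidableEq J] (a : J → List α) (A : Finset J)
    (hne : ∀ j ∈ A, a j ≠ []) (hff : ∀ i ∈ A, ∀ j ∈ A, i ≠ j → ¬ a i <:+: a j)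
    (Ω : List α) (hΩ : ∀ j ∈ A, a j <:+: Ω) :
    ∃ L : List J, L.Nodup ∧ L.toFinset = A ∧
      ∑ j ∈ A, (a j).length ≤ Ω.length + pathOv (L.map a) := by
  classical
  choose! p hp using fun j (hj : j ∈ A) => occAt_of_infix (hΩ j hj)
  have hend : ∀ j ∈ A, p j + (a j).length ≤ Ω.length := by
    intro j hj
    obtain ⟨P, Q, hE, hP⟩ := hp j hj
    rw [hE, ← hP]
    simp only [List.length_append]
    omega
  have key : ∀ A' : Finset J, A' ⊆ A → A'.Nonempty →
      ∃ (b : J) (L : List J), (b :: L).Nodup ∧ (b :: L).toFinset = A' ∧ (∀ x ∈ A', p b ≤ p x) ∧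
        ∑ j ∈ A', (a j).length + p b ≤ Ω.length + pathOv ((b :: L).map a) := by
    intro A'
    induction A' using Finset.induction_on_min_value p with
    | empty =>
      intro _ hne'
      exact absurd hne' Finset.not_nonempty_empty
    | insert z s hz hmin ih =>
      intro hsub _
      have hzA : z ∈ A := hsub (Finset.mem_insert_self z s)
      rcases s.eq_empty_or_nonempty with rfl | hs
      · refine ⟨z, [], by simp, by simp, by simp, ?_⟩
        have := hend z hzA
        simp [pathOv]
        omega
      · obtain ⟨b, L, hnd, htf, hlow, hsum⟩ := ih ((Finset.subset_insert z s).trans hsub) hs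
        have hbs : b ∈ s := by
          rw [← htf]
          simp
        have hbA : b ∈ A := hsub (Finset.mem_insert_of_mem hbs)
        have hzb : z ≠ b := fun h => hz (h ▸ hbs)
        have hnn := nn_of_not_infix (hp z hzA) (hp b hbA) (hff z hzA b hbA hzb)
          (hff b hbA z hzA hzb.symm)
        have hle := hmin b hbs
        have hlt : p z < p b ∧ p z + (a z).length < p b + (a b).length := by
          rcases hnn with h1 | h1
          · exact h1
          · omega
        have hov := le_ov_of_occ (hp z hzA) (hp b hbA) hlt.1 hlt.2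
        refine ⟨z, b :: L, ?_, ?_, ?_, ?_⟩
        · refine List.nodup_cons.mpr ⟨?_, hnd⟩
          intro hmem
          apply hz
          rw [← htf]
          exact List.mem_toFinset.mpr hmem
        · rw [List.toFinset_cons, htf]
        · intro x hx
          rcases Finset.mem_insert.mp hx with rfl | hx
          · exact le_rfl
          · exact hmin x hx
        · rw [Finset.sum_insert hz]
          have h2 : pathOv ((z :: b :: L).map a) = ov (a z) (a b) + pathOv ((b :: L).map a) := rfl
          rw [h2]
          omega
  rcases A.eq_empty_or_nonempty with rfl | hA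
  · exact ⟨[], by simp, by simp, by simp⟩
  · obtain ⟨b, L, hnd, htf, -, hsum⟩ := key A (Finset.Subset.refl A) hA
    exact ⟨b :: L, hnd, htf, by omega⟩

/-- A factor of a block of a sequence is a block of the sequence. -/
theorem exists_fac_of_infix {u : ℕ → α} {x n : ℕ} {w : List α} (h : w <:+: fac u x n) :
    ∃ P, w = fac u P w.length := by
  obtain ⟨A, B, hE⟩ := h
  have hlen : n = A.length + (w.length + B.length) := by
    have := congrArg List.length hE
    simp only [List.length_append, fac_length] at this
    omega
  subst hlen
  rw [fac_add, fac_add, List.append_assoc] at hE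
  have h1 := List.append_inj hE (by simp)
  have h2 := List.append_inj h1.2 (by simp)
  exact ⟨x + A.length, h2.1⟩

end lists

variable {α : Type*} [DecidableEq α] {ι : Type*} [Fintype ι] [DecidableEq ι]
variable {s : ι → List α} {σ : Equiv.Perm ι} {cut : Finset ι → ι}

/-- The opened cycles of a minimum cover are pairwise factor free. -/
theorem opened_not_infix (hne : ∀ i, s i ≠ []) (hfree : ∀ i j, i ≠ j → ¬ s i <:+: s j)
    (hσ : IsMinCover s σ) (hcut : IsWeakestCut s σ cut) {X Y : Finset ι} (hX : X ∈ cycles σ)
    (hY : Y ∈ cycles σ) (hXY : X ≠ Y) : ¬ opened s σ cut X <:+: opened s σ cut Y := by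
  intro hinf
  obtain ⟨u, hper, hfac, -, hch, -, -⟩ := exists_cycle_data (s := s) hne σ (cut Y)
  rw [orbit_cut hcut hY] at hper hfac hch
  have hall : ∀ i ∈ X ∪ Y, ∃ P, s i = fac u P (s i).length := by
    intro i hi
    rcases Finset.mem_union.mp hi with h | h
    · have h1 := ((opened_spec hne hcut hX).1 i h).trans hinf
      have h2 : opened s σ cut Y = fac u 0 (period s σ Y + ov (s (cut Y)) (s (σ (cut Y)))) := hch
      rw [h2] at h1
      exact exists_fac_of_infix h1
    · exact hfac i h
  choose! P hP using hall
  have h1 : ∀ i ∈ X ∪ Y, σ i ∈ X ∪ Y := by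
    intro i hi
    rcases Finset.mem_union.mp hi with h | h
    · exact Finset.mem_union_left _ ((orbit_invariant hX).mpr h)
    · exact Finset.mem_union_right _ ((orbit_invariant hY).mpr h)
  have h2 : ∀ i, σ i ∈ X ∪ Y → i ∈ X ∪ Y := by
    intro i hi
    rcases Finset.mem_union.mp hi with h | h
    · exact Finset.mem_union_left _ ((orbit_invariant hX).mp h)
    · exact Finset.mem_union_right _ ((orbit_invariant hY).mp h)
  have hs := sum_le_of_common_seq hne hfree hσ (X ∪ Y) h1 h2 u (period s σ Y)
    (period_pos hne hY) hper P hP
  rw [Finset.sum_union (cycles_disjoint hX hY hXY)] at hs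
  have hpX := period_pos (s := s) hne hX
  unfold period at hpX hs
  omega

/-- The opened strings are nonempty. -/
theorem opened_ne_nil (hne : ∀ i, s i ≠ []) (hcut : IsWeakestCut s σ cut) {X : Finset ι}
    (hX : X ∈ cycles σ) : opened s σ cut X ≠ [] := by
  intro h
  have h1 := period_pos (s := s) hne hX
  have h2 := (opened_spec hne hcut hX).2
  rw [h] at h2
  simp at h2
  omega

/-- **The algorithm's analysis.** Merging the opened cycles along any order whose total overlap is
within a factor `δ` of the best order gives a superstring at most `3 - δ` times longer than any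
superstring. -/
theorem merge_order_bound (hne : ∀ i, s i ≠ []) (hfree : ∀ i j, i ≠ j → ¬ s i <:+: s j)
    (hσ : IsMinCover s σ) (hcut : IsWeakestCut s σ cut) (δ : ℚ) (h0 : 0 ≤ δ) (h1 : δ ≤ 1)
    (L : List (Finset ι)) (hnd : L.Nodup) (hL : L.toFinset = cycles σ)
    (hbest : ∀ L' : List (Finset ι), L'.Nodup → L'.toFinset = cycles σ →
      δ * (pathOv (L'.map (opened s σ cut)) : ℚ) ≤ (pathOv (L.map (opened s σ cut)) : ℚ)) :
    IsSuperstring s (mergeAll (L.map (opened s σ cut))) ∧
      ∀ Ω : List α, IsSuperstring s Ω →
        ((mergeAll (L.map (opened s σ cut))).length : ℚ) ≤ (3 - δ) * (Ω.length : ℚ) := by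
  classical
  have hmemL : ∀ X, X ∈ L ↔ X ∈ cycles σ := by
    intro X
    rw [← hL, List.mem_toFinset]
  have hneM : ∀ x ∈ L.map (opened s σ cut), x ≠ [] := by
    intro x hx
    obtain ⟨X, hX, rfl⟩ := List.mem_map.mp hx
    exact opened_ne_nil hne hcut ((hmemL X).mp hX)
  have hinf : ∀ X ∈ cycles σ, opened s σ cut X <:+: mergeAll (L.map (opened s σ cut)) := by
    intro X hX
    exact infix_mergeAll _ hneM _ (List.mem_map.mpr ⟨X, (hmemL X).mpr hX, rfl⟩)
  refine ⟨?_, ?_⟩
  · intro i
    have hX := orbit_mem_cycles σ i
    exact ((opened_spec hne hcut hX).1 i (self_mem_orbit σ i)).trans (hinf _ hX)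
  · intro Ω hΩ
    obtain ⟨Ω', hΩ', hlen⟩ := exists_superstring_opened hne hfree hcut hΩ
    obtain ⟨L', hnd', hL', hcomp⟩ := exists_order (opened s σ cut) (cycles σ)
      (fun X hX => opened_ne_nil hne hcut hX)
      (fun X hX Y hY hXY => opened_not_infix hne hfree hσ hcut hX hY hXY) Ω' hΩ'
    have hb := hbest L' hnd' hL'
    have hsumL : ∑ X ∈ cycles σ, (opened s σ cut X).length =
        ((L.map (opened s σ cut)).map List.length).sum := by
      rw [← hL, List.sum_toFinset _ hnd, List.map_map]
      rfl
    have hmerge := length_mergeAll (L.map (opened s σ cut)) hneM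
    have h3 := sum_opened_le hne hfree hσ hcut hΩ
    have h4 := coverCost_le_length hne hfree hσ hΩ
    set N := ∑ X ∈ cycles σ, (opened s σ cut X).length with hN
    rw [← hsumL] at hmerge
    have hmergeQ : ((mergeAll (L.map (opened s σ cut))).length : ℚ) +
        (pathOv (L.map (opened s σ cut)) : ℚ) = (N : ℚ) := by exact_mod_cast hmerge
    have hcompQ : (N : ℚ) ≤ (Ω'.length : ℚ) + (pathOv (L'.map (opened s σ cut)) : ℚ) := by
      exact_mod_cast hcomp
    have h3Q : (N : ℚ) ≤ (Ω.length : ℚ) + 2 * (coverCost s σ : ℚ) := by
      have : N ≤ Ω.length + 2 * coverCost s σ := by omega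
      exact_mod_cast this
    have hlenQ : (Ω'.length : ℚ) ≤ (Ω.length : ℚ) + (coverCost s σ : ℚ) := by exact_mod_cast hlen
    have h4Q : (coverCost s σ : ℚ) ≤ (Ω.length : ℚ) := by exact_mod_cast h4
    have h5 : δ * (N : ℚ) ≤ δ * ((Ω'.length : ℚ) + (pathOv (L'.map (opened s σ cut)) : ℚ)) :=
      mul_le_mul_of_nonneg_left hcompQ h0
    have h6 : (1 - δ) * (N : ℚ) ≤ (1 - δ) * ((Ω.length : ℚ) + 2 * (coverCost s σ : ℚ)) :=
      mul_le_mul_of_nonneg_left h3Q (by linarith)
    have h7 : δ * (Ω'.length : ℚ) ≤ δ * ((Ω.length : ℚ) + (coverCost s σ : ℚ)) :=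
      mul_le_mul_of_nonneg_left hlenQ h0
    have h8 : (2 - δ) * (coverCost s σ : ℚ) ≤ (2 - δ) * (Ω.length : ℚ) :=
      mul_le_mul_of_nonneg_left h4Q (by linarith)
    nlinarith

end Vale.Agent.Lib.P333
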