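import Vale.Agent.Lib.P333.Unbordered

/-!
Rauzy graphs: the word lemma.  Distinct primitive periodic sequences give independent cycles in the
graph of factors of a word `Ω`, and the first Betti numbers of these graphs sum to `|Ω|`.
-/

namespace Vale.Agent.Lib.P333

variable {α : Type*} [DecidableEq α]

set_option linter.unusedSectionVars false

/-- The set of factors of length `k` of `Ω`. -/
def facs (Ω : List α) (k : ℕ) : Finset (List α) :=
  (Finset.range (Ω.length + 1 - k)).image (fun p => (Ω.drop p).take k)

theorem mem_facs {Ω t : List α} {k : ℕ} : t ∈ facs Ω k ↔ t.length = k ∧ t <:+: Ω := by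
  unfold facs
  simp only [Finset.mem_image, Finset.mem_range]
  constructor
  · rintro ⟨p, hp, rfl⟩
    constructor
    · simp; omega
    · exact ((List.take_prefix _ _).isInfix).trans ((List.drop_suffix _ _).isInfix)
  · rintro ⟨hl, s, r, rfl⟩
    refine ⟨s.length, ?_, ?_⟩
    · simp at *; omega
    · subst hl
      simp [List.append_assoc]

theorem facs_zero (Ω : List α) : (facs Ω 0).card = 1 := by
  have : facs Ω 0 = {[]} := by
    ext t
    rw [mem_facs]
    simp only [Finset.mem_singleton, List.length_eq_zero_iff]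
    constructor
    · exact fun h => h.1
    · rintro rfl; exact ⟨rfl, List.nil_infix⟩
  rw [this]; simp

theorem facs_length (Ω : List α) : (facs Ω Ω.length).card = 1 := by
  have : facs Ω Ω.length = {Ω} := by
    ext t
    rw [mem_facs]
    simp only [Finset.mem_singleton]
    constructor
    · rintro ⟨hl, h⟩
      exact h.eq_of_length hl
    · rintro rfl; exact ⟨rfl, List.infix_rfl⟩
  rw [this]; simp

/-- Counting: a connected graph has at least `|V|-1` edges, stated with cuts. -/
theorem card_le_of_noCut {β γ : Type*} [DecidableEq β] [DecidableEq γ]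
    {V : Finset β} {R : Finset γ} (tl hd : γ → β)
    (hV : ∀ e ∈ R, tl e ∈ V ∧ hd e ∈ V)
    (h : ∀ g : β → Prop, (∀ e ∈ R, (g (tl e) ↔ g (hd e))) → ∀ a ∈ V, ∀ b ∈ V, (g a ↔ g b)) :
    V.card ≤ R.card + 1 := by
  classical
  rcases V.eq_empty_or_nonempty with rfl | ⟨a0, ha0⟩
  · simp
  let G : SimpleGraph (↥V) :=
    { Adj := fun a b => a ≠ b ∧ ∃ e ∈ R, (tl e = a.1 ∧ hd e = b.1) ∨ (tl e = b.1 ∧ hd e = a.1)
      symm := ⟨by
        rintro a b ⟨hab, e, he, h1⟩
        exact ⟨hab.symm, e, he, h1.symm⟩⟩
      loopless := ⟨fun a h => h.1 rfl⟩ }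
  have hreach : ∀ a b : ↥V, G.Reachable a b := by
    intro a b
    let g : β → Prop := fun c => ∃ hc : c ∈ V, G.Reachable a ⟨c, hc⟩
    have hg : ∀ e ∈ R, (g (tl e) ↔ g (hd e)) := by
      intro e he
      obtain ⟨h1, h2⟩ := hV e he
      have hstep : G.Reachable ⟨tl e, h1⟩ ⟨hd e, h2⟩ := by
        by_cases heq : tl e = hd e
        · have : (⟨tl e, h1⟩ : ↥V) = ⟨hd e, h2⟩ := Subtype.ext heq
          rw [this]
        · apply SimpleGraph.Adj.reachable
          exact ⟨fun h => heq (congrArg Subtype.val h), e, he, Or.inl ⟨rfl, rfl⟩⟩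
      constructor
      · rintro ⟨_, hr⟩
        exact ⟨h2, hr.trans hstep⟩
      · rintro ⟨_, hr⟩
        exact ⟨h1, hr.trans hstep.symm⟩
    have := (h g hg a.1 a.2 b.1 b.2).mp ⟨a.2, SimpleGraph.Reachable.refl _⟩
    obtain ⟨_, hr⟩ := this
    exact hr
  have hconn : G.Connected :=
    { preconnected := hreach
      nonempty := ⟨⟨a0, ha0⟩⟩ }
  have h1 := hconn.card_vert_le_card_edgeSet_add_one
  rw [Nat.card_eq_fintype_card, Fintype.card_coe] at h1
  have h2 : Nat.card G.edgeSet ≤ R.card := by
    let φ : γ → Sym2 (↥V) := fun e =>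
      if he : e ∈ R then s(⟨tl e, (hV e he).1⟩, ⟨hd e, (hV e he).2⟩) else s(⟨a0, ha0⟩, ⟨a0, ha0⟩)
    have hsub : G.edgeSet ⊆ φ '' (R : Set γ) := by
      intro s hs
      induction s using Sym2.ind with
      | _ a b =>
        rw [SimpleGraph.mem_edgeSet] at hs
        obtain ⟨_, e, he, h3⟩ := hs
        refine ⟨e, he, ?_⟩
        simp only [φ, dif_pos he]
        rcases h3 with ⟨h4, h5⟩ | ⟨h4, h5⟩
        · have e1 : (⟨tl e, (hV e he).1⟩ : ↥V) = a := Subtype.ext h4
          have e2 : (⟨hd e, (hV e he).2⟩ : ↥V) = b := Subtype.ext h5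
          rw [e1, e2]
        · have e1 : (⟨tl e, (hV e he).1⟩ : ↥V) = b := Subtype.ext h4
          have e2 : (⟨hd e, (hV e he).2⟩ : ↥V) = a := Subtype.ext h5
          rw [e1, e2, Sym2.eq_swap]
    rw [Nat.card_coe_set_eq]
    calc G.edgeSet.ncard ≤ (φ '' (R : Set γ)).ncard :=
          Set.ncard_le_ncard hsub (Set.Finite.image _ (Finset.finite_toSet R))
      _ ≤ (R : Set γ).ncard := Set.ncard_image_le (Finset.finite_toSet R)
      _ = R.card := Set.ncard_coe_finset R
  omega

theorem fac_dropLast (u : ℕ → α) (x k : ℕ) : (fac u x (k + 1)).dropLast = fac u x k := by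
  rw [fac_add]
  simp [fac]

theorem fac_tail (u : ℕ → α) (x k : ℕ) : (fac u x (k + 1)).tail = fac u (x + 1) k := by
  rw [Nat.add_comm k 1, fac_add]
  simp [fac]

theorem take_dropLast_aux (l : List α) (k : ℕ) (h : k < l.length) :
    (l.take (k + 1)).dropLast = l.take k := by
  rw [List.dropLast_eq_take, List.take_take, List.length_take]
  congr 1
  omega

theorem take_tail_aux (l : List α) (k : ℕ) :
    (l.take (k + 1)).tail = (l.tail).take k := by
  cases l with
  | nil => simp
  | cons a l => simp

/-- A factor of length `k+1` has its two ends among the factors of length `k`. -/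
theorem ends_mem {Ω e : List α} {k : ℕ} (he : e ∈ facs Ω (k + 1)) :
    e.dropLast ∈ facs Ω k ∧ e.tail ∈ facs Ω k := by
  obtain ⟨hl, h⟩ := mem_facs.mp he
  constructor
  · rw [mem_facs]
    refine ⟨by simp [hl], ?_⟩
    exact ((List.dropLast_prefix e).isInfix).trans h
  · rw [mem_facs]
    refine ⟨by simp [hl], ?_⟩
    exact ((List.tail_suffix e).isInfix).trans h

/-- The level inequality: `q + f(k) ≤ f(k+1) + 1`. -/
theorem level_bound [LinearOrder α] {κ : Type*} [DecidableEq κ] (Ω : List α) (k : ℕ)
    (J : Finset κ) (u : κ → ℕ → α) (π : κ → ℕ)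
    (h0 : ∀ j ∈ J, 0 < π j) (hle : ∀ j ∈ J, π j ≤ k + 1)
    (hper : ∀ j ∈ J, ∀ y, u j (y + π j) = u j y)
    (hmin : ∀ j ∈ J, ∀ d, 0 < d → (∀ y, u j (y + d) = u j y) → π j ≤ d)
    (hne : ∀ j ∈ J, ∀ l ∈ J, j ≠ l → ∀ x y, ¬ ∀ i, u j (x + i) = u l (y + i))
    (hocc : ∀ j ∈ J, ∀ x, fac (u j) x (k + 1) <:+: Ω) :
    J.card + (facs Ω k).card ≤ (facs Ω (k + 1)).card + 1 := by
  classical
  -- unbordered rotations
  have hx : ∀ j, ∃ x, j ∈ J → ∀ d, 0 < d → d < π j →
      ∃ i, i + d < π j ∧ u j (x + i) ≠ u j (x + i + d) := by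
    intro j
    by_cases hj : j ∈ J
    · obtain ⟨x, hx⟩ := exists_unbordered (h0 j hj) (hper j hj) (hmin j hj)
      exact ⟨x, fun _ => hx⟩
    · exact ⟨0, fun h => absurd h hj⟩
  choose x hx using hx
  let e : κ → List α := fun j => fac (u j) (x j) (k + 1)
  have heE : ∀ j ∈ J, e j ∈ facs Ω (k + 1) := by
    intro j hj
    rw [mem_facs]
    exact ⟨by simp [e], hocc j hj _⟩
  -- privacy of `e j` among words of smaller or equal period
  have hpriv : ∀ j ∈ J, ∀ l ∈ J, j ≠ l → π l ≤ π j → ∀ y, e j ≠ fac (u l) y (k + 1) := by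
    intro j hj l hl hjl hpl y heq
    have hi : ∀ i, i < k + 1 → u j (x j + i) = u l (y + i) := fac_eq_iff.mp heq
    rcases lt_or_eq_of_le hpl with hlt | heqp
    · obtain ⟨i, hi1, hi2⟩ := hx j hj (π l) (h0 l hl) hlt
      have hj1 := hle j hj
      apply hi2
      rw [hi i (by omega), Nat.add_assoc, hi (i + π l) (by omega), ← Nat.add_assoc,
        hper l hl]
    · apply hne j hj l hl hjl (x j) y
      intro i
      have hp0 := h0 j hj
      have hj1 := hle j hj
      have h1 : u j (x j + i) = u j (x j + i % π j) := by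
        conv_lhs => rw [← Nat.mod_add_div i (π j)]
        rw [← Nat.add_assoc, Nat.mul_comm, per_mul (hper j hj)]
      have h2 : u l (y + i) = u l (y + i % π j) := by
        conv_lhs => rw [← Nat.mod_add_div i (π j)]
        rw [← Nat.add_assoc, Nat.mul_comm, ← heqp, per_mul (hper l hl)]
      rw [h1, h2]
      have : i % π j < π j := Nat.mod_lt _ hp0
      exact hi _ (by omega)
  have hinj : Set.InjOn e (J : Set κ) := by
    intro j hj l hl heq
    by_contra hjl
    rcases le_total (π l) (π j) with h | h
    · exact hpriv j hj l hl hjl h (x l) heq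
    · exact hpriv l hl j hj (Ne.symm hjl) h (x j) heq.symm
  let R : Finset (List α) := facs Ω (k + 1) \ J.image e
  have hcardR : R.card + J.card = (facs Ω (k + 1)).card := by
    have hsub : J.image e ⊆ facs Ω (k + 1) := by
      intro t ht
      obtain ⟨j, hj, rfl⟩ := Finset.mem_image.mp ht
      exact heE j hj
    have := Finset.card_sdiff_add_card_eq_card hsub
    rwa [Finset.card_image_of_injOn hinj] at this
  have hcut := card_le_of_noCut (V := facs Ω k) (R := R) List.dropLast List.tail
    (fun t ht => ends_mem (Finset.mem_sdiff.mp ht).1) ?_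
  · omega
  intro g hg
  -- every private edge has connected ends
  have hprivconn : ∀ n, ∀ j ∈ J, π j = n → (g (e j).dropLast ↔ g (e j).tail) := by
    intro n
    induction n using Nat.strong_induction_on with
    | _ n ih =>
      intro j hj hjn
      have hp0 := h0 j hj
      have hj1 := hle j hj
      -- walk along the cycle
      have hwalk : ∀ t, 1 ≤ t → t ≤ π j →
          (g (fac (u j) (x j + 1) k) ↔ g (fac (u j) (x j + t) k)) := by
        intro t ht1
        induction t, ht1 using Nat.le_induction with
        | base => intro _; exact Iff.rfl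
        | succ t ht1 iht =>
          intro ht2
          refine (iht (by omega)).trans ?_
          have hend1 : (fac (u j) (x j + t) (k + 1)).dropLast = fac (u j) (x j + t) k :=
            fac_dropLast _ _ _
          have hend2 : (fac (u j) (x j + t) (k + 1)).tail = fac (u j) (x j + (t + 1)) k := by
            rw [fac_tail]; rfl
          rw [← hend1, ← hend2]
          set a := fac (u j) (x j + t) (k + 1) with ha
          have haE : a ∈ facs Ω (k + 1) := by
            rw [mem_facs]; exact ⟨by simp [ha], hocc j hj _⟩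
          by_cases haR : a ∈ R
          · exact hg a haR
          · have hmem : a ∈ J.image e := by
              by_contra hcon
              exact haR (Finset.mem_sdiff.mpr ⟨haE, hcon⟩)
            obtain ⟨l, hl, hla⟩ := Finset.mem_image.mp hmem
            by_cases hlj : l = j
            · -- then `t` would be a period
              exfalso
              subst hlj
              have hi : ∀ i, i < k + 1 → u l (x l + i) = u l (x l + t + i) := fac_eq_iff.mp hla
              have hper' : ∀ y, u l (y + t) = u l y := by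
                intro y
                obtain ⟨i, hi1, hyi⟩ := exists_phase hp0 (hper l hl) (x l) y
                have h6 := hi i (by omega)
                have e1 : x l + t + i = x l + i + t := by omega
                rw [e1] at h6
                rw [hyi t, ← h6]
                have := hyi 0
                simpa using this.symm
              have := hmin l hl t (by omega) hper'
              omega
            · -- privacy of `e l` forces a smaller period
              have hlt : π l < π j := by
                by_contra hcon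
                exact hpriv l hl j hj hlj (by omega) (x j + t) hla
              have := ih (π l) (by omega) l hl rfl
              rw [hla] at this
              exact this
      have h1 := hwalk (π j) hp0 le_rfl
      have e1 : (e j).dropLast = fac (u j) (x j) k := fac_dropLast _ _ _
      have e2 : (e j).tail = fac (u j) (x j + 1) k := fac_tail _ _ _
      rw [e1, e2, ← fac_shift_per (hper j hj) (x j) k]
      exact h1.symm
  have hedge : ∀ a ∈ facs Ω (k + 1), (g a.dropLast ↔ g a.tail) := by
    intro a ha
    by_cases haR : a ∈ R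
    · exact hg a haR
    · have hmem : a ∈ J.image e := by
        by_contra hcon
        exact haR (Finset.mem_sdiff.mpr ⟨ha, hcon⟩)
      obtain ⟨l, hl, rfl⟩ := Finset.mem_image.mp hmem
      exact hprivconn _ l hl rfl
  -- all vertices are connected along the word
  have hpos : ∀ p, p + k ≤ Ω.length → (g ((Ω.drop 0).take k) ↔ g ((Ω.drop p).take k)) := by
    intro p
    induction p with
    | zero => intro _; exact Iff.rfl
    | succ p ih =>
      intro hp
      refine (ih (by omega)).trans ?_
      have hmem : (Ω.drop p).take (k + 1) ∈ facs Ω (k + 1) := by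
        unfold facs
        exact Finset.mem_image.mpr ⟨p, Finset.mem_range.mpr (by omega), rfl⟩
      have := hedge _ hmem
      rw [take_dropLast_aux _ _ (by simp; omega), take_tail_aux, List.tail_drop] at this
      exact this
  intro a ha b hb
  unfold facs at ha hb
  obtain ⟨p, hp, rfl⟩ := Finset.mem_image.mp ha
  obtain ⟨q, hq, rfl⟩ := Finset.mem_image.mp hb
  have hp' := Finset.mem_range.mp hp
  have hq' := Finset.mem_range.mp hq
  exact (hpos p (by omega)).symm.trans (hpos q (by omega))

/-- **Word lemma.** -/
theorem rauzy_sum [LinearOrder α] {κ : Type*} [DecidableEq κ] (Ω : List α)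
    (I : Finset κ) (u : κ → ℕ → α) (π o : κ → ℕ)
    (h0 : ∀ j ∈ I, 0 < π j)
    (hper : ∀ j ∈ I, ∀ y, u j (y + π j) = u j y)
    (hmin : ∀ j ∈ I, ∀ d, 0 < d → (∀ y, u j (y + d) = u j y) → π j ≤ d)
    (hne : ∀ j ∈ I, ∀ l ∈ I, j ≠ l → ∀ x y, ¬ ∀ i, u j (x + i) = u l (y + i))
    (hocc : ∀ j ∈ I, ∀ x, fac (u j) x (o j) <:+: Ω) :
    ∑ j ∈ I, (o j + 1 - π j) ≤ Ω.length := by
  classical
  set n := Ω.length with hn
  let J : ℕ → Finset κ := fun k => I.filter (fun j => π j ≤ k + 1 ∧ k + 1 ≤ o j)
  have hlev : ∀ k, (J k).card + (facs Ω k).card ≤ (facs Ω (k + 1)).card + 1 := by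
    intro k
    apply level_bound Ω k (J k) u π
    · intro j hj; exact h0 j (Finset.mem_filter.mp hj).1
    · intro j hj; exact (Finset.mem_filter.mp hj).2.1
    · intro j hj; exact hper j (Finset.mem_filter.mp hj).1
    · intro j hj; exact hmin j (Finset.mem_filter.mp hj).1
    · intro j hj l hl; exact hne j (Finset.mem_filter.mp hj).1 l (Finset.mem_filter.mp hl).1
    · intro j hj x
      have hj' := Finset.mem_filter.mp hj
      exact ((fac_prefix (u j) x hj'.2.2).isInfix).trans (hocc j hj'.1 x)
  have hsum : ∀ m, ∑ k ∈ Finset.range m, (J k).card + (facs Ω 0).card ≤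
      (facs Ω m).card + m := by
    intro m
    induction m with
    | zero => simp
    | succ m ih =>
      rw [Finset.sum_range_succ]
      have := hlev m
      omega
  have h1 := hsum n
  rw [facs_zero, hn, facs_length, ← hn] at h1
  have h2 : ∑ k ∈ Finset.range n, (J k).card ≤ n := by omega
  refine le_trans ?_ h2
  have h3 : ∑ k ∈ Finset.range n, (J k).card =
      ∑ j ∈ I, ((Finset.range n).filter (fun k => π j ≤ k + 1 ∧ k + 1 ≤ o j)).card := by
    simp only [J, Finset.card_filter]
    rw [Finset.sum_comm]
  rw [h3]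
  apply Finset.sum_le_sum
  intro j hj
  have hon : o j ≤ n := by
    by_contra hcon
    have := (hocc j hj 0).length_le
    simp at this
    omega
  have hp0 := h0 j hj
  have hsub : Finset.Ico (π j - 1) (o j) ⊆
      (Finset.range n).filter (fun k => π j ≤ k + 1 ∧ k + 1 ≤ o j) := by
    intro k hk
    have := Finset.mem_Ico.mp hk
    exact Finset.mem_filter.mpr ⟨Finset.mem_range.mpr (by omega), by omega, by omega⟩
  have := Finset.card_le_card hsub
  rw [Nat.card_Ico] at this
  omega

end Vale.Agent.Lib.P333
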