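import Mathlib

/-!
Rearrangement lemma for minimal cycle covers: a set `A` of indices invariant under a minimal
permutation `σ`, with positions `φ` on a circle of circumference `U` such that the cost of every
forward step is at most the position gap, has total `σ` cost at most `U`.
-/

namespace Vale.Agent.Lib.P333.Rearrange

open Finset

variable {ι : Type*} [DecidableEq ι]

/-- A nonempty finite set sorted by `φ` carries a path permutation: the identity off `A`, the top
element `hi` is sent to the bottom element `lo`, and the forward steps cost at most `φ hi - φ lo`. -/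
theorem exists_path_perm [Fintype ι] (w : ι → ι → ℕ) (φ : ι → ℕ) (A : Finset ι)
    (hinj : Set.InjOn φ A)
    (hfwd : ∀ a ∈ A, ∀ b ∈ A, φ a < φ b → w a b + φ a ≤ φ b) (hne : A.Nonempty) :
    ∃ (τ : Equiv.Perm ι) (lo hi : ι), lo ∈ A ∧ hi ∈ A ∧ (∀ x ∈ A, φ x ≤ φ hi) ∧
      (∀ x ∉ A, τ x = x) ∧ τ hi = lo ∧
      ∑ x ∈ A.erase hi, w x (τ x) + φ lo ≤ φ hi := by
  classical
  revert hinj hfwd hne
  induction A using Finset.induction_on_max_value φ with
  | empty =>
    intro _ _ hne
    exact absurd hne Finset.not_nonempty_empty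
  | insert z s hz hmax ih =>
    intro hinj hfwd _
    have hinj' : Set.InjOn φ (s : Set ι) :=
      hinj.mono (by intro x hx; simp only [coe_insert]; exact Or.inr hx)
    have hfwd' : ∀ a ∈ s, ∀ b ∈ s, φ a < φ b → w a b + φ a ≤ φ b := fun a ha b hb =>
      hfwd a (mem_insert_of_mem ha) b (mem_insert_of_mem hb)
    rcases s.eq_empty_or_nonempty with rfl | hs
    · refine ⟨1, z, z, by simp, by simp, by simp, by simp, rfl, by simp⟩
    · obtain ⟨τ, lo, hi, hlo, hhi, htop, hoff, hτ, hsum⟩ := ih hinj' hfwd' hs
      have hzA : z ∉ s := hz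
      have hhiz : hi ≠ z := fun h => hzA (h ▸ hhi)
      have hlt : φ hi < φ z := by
        refine lt_of_le_of_ne (hmax hi hhi) ?_
        intro h
        exact hhiz (hinj (by simp [hhi]) (by simp) h)
      refine ⟨τ * Equiv.swap hi z, lo, z, mem_insert_of_mem hlo, mem_insert_self z s, ?_, ?_, ?_, ?_⟩
      · intro x hx
        rcases mem_insert.mp hx with rfl | hx
        · exact le_rfl
        · exact hmax x hx
      · intro x hx
        have hxz : x ≠ z := fun h => hx (h ▸ mem_insert_self z s)
        have hxs : x ∉ s := fun h => hx (mem_insert_of_mem h)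
        have hxhi : x ≠ hi := fun h => hxs (h ▸ hhi)
        simp only [Equiv.Perm.coe_mul, Function.comp_apply]
        rw [Equiv.swap_apply_of_ne_of_ne hxhi hxz]
        exact hoff x hxs
      · simp only [Equiv.Perm.coe_mul, Function.comp_apply, Equiv.swap_apply_right]
        exact hτ
      · have he : (insert z s).erase z = insert hi (s.erase hi) := by
          ext x
          simp only [mem_erase, mem_insert]
          constructor
          · rintro ⟨h1, h2 | h2⟩
            · exact absurd h2 h1
            · by_cases hx : x = hi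
              · exact Or.inl hx
              · exact Or.inr ⟨hx, h2⟩
          · rintro (h | ⟨h1, h2⟩)
            · subst h
              exact ⟨hhiz, Or.inr hhi⟩
            · exact ⟨fun h => hzA (h ▸ h2), Or.inr h2⟩
        rw [he, sum_insert (by simp)]
        have h1 : (τ * Equiv.swap hi z) hi = z := by
          simp only [Equiv.Perm.coe_mul, Function.comp_apply, Equiv.swap_apply_left]
          exact hoff z hzA
        have h2 : ∑ x ∈ s.erase hi, w x ((τ * Equiv.swap hi z) x) =
            ∑ x ∈ s.erase hi, w x (τ x) := by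
          refine sum_congr rfl fun x hx => ?_
          have hx1 := mem_erase.mp hx
          have hxz : x ≠ z := fun h => hzA (h ▸ hx1.2)
          simp only [Equiv.Perm.coe_mul, Function.comp_apply]
          rw [Equiv.swap_apply_of_ne_of_ne hx1.1 hxz]
        rw [h1, h2]
        have h3 := hfwd hi (mem_insert_of_mem hhi) z (mem_insert_self z s) hlt
        omega

/-- **Rearrangement lemma.** -/
theorem sum_le_of_min [Fintype ι] (w : ι → ι → ℕ) (σ : Equiv.Perm ι)
    (hmin : ∀ τ : Equiv.Perm ι, ∑ i, w i (σ i) ≤ ∑ i, w i (τ i))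
    (A : Finset ι) (hA : ∀ a ∈ A, σ a ∈ A) (φ : ι → ℕ) (U : ℕ)
    (hinj : Set.InjOn φ A)
    (hfwd : ∀ a ∈ A, ∀ b ∈ A, φ a < φ b → w a b + φ a ≤ φ b)
    (hwrap : ∀ a ∈ A, ∀ b ∈ A, φ b ≤ φ a → w a b + φ a ≤ φ b + U) :
    ∑ a ∈ A, w a (σ a) ≤ U := by
  classical
  rcases A.eq_empty_or_nonempty with rfl | hne
  · simp
  obtain ⟨τ, lo, hi, hlo, hhi, htop, hoff, hτ, hsum⟩ := exists_path_perm w φ A hinj hfwd hne
  have hcost : ∑ a ∈ A, w a (τ a) ≤ U := by
    rw [← add_sum_erase A _ hhi, hτ]
    have h1 : φ lo ≤ φ hi := htop lo hlo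
    have h2 := hwrap hi hhi lo hlo h1
    omega
  -- the permutation that agrees with `τ` on `A` and with `σ` off `A`
  have hτA : ∀ a ∈ A, τ a ∈ A := by
    intro a ha
    by_contra h
    have h1 := hoff (τ a) h
    have h2 : τ a = a := τ.injective h1
    exact h (by rw [h2]; exact ha)
  have hσimg : A.image σ = A := by
    apply Finset.eq_of_subset_of_card_le
    · intro x hx
      obtain ⟨a, ha, rfl⟩ := mem_image.mp hx
      exact hA a ha
    · rw [Finset.card_image_of_injective A σ.injective]
  have hσoff : ∀ x, x ∉ A → σ x ∉ A := by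
    intro x hx h
    rw [← hσimg] at h
    obtain ⟨a, ha, hax⟩ := mem_image.mp h
    have : a = x := σ.injective hax
    exact hx (this ▸ ha)
  let f : ι → ι := fun x => if x ∈ A then τ x else σ x
  have hf : Function.Injective f := by
    intro x y hxy
    simp only [f] at hxy
    by_cases hx : x ∈ A <;> by_cases hy : y ∈ A
    · rw [if_pos hx, if_pos hy] at hxy
      exact τ.injective hxy
    · rw [if_pos hx, if_neg hy] at hxy
      exact absurd (hxy ▸ hτA x hx) (hσoff y hy)
    · rw [if_neg hx, if_pos hy] at hxy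
      exact absurd (hxy ▸ hτA y hy) (hσoff x hx)
    · rw [if_neg hx, if_neg hy] at hxy
      exact σ.injective hxy
  let σ' : Equiv.Perm ι := Equiv.ofBijective f (Finite.injective_iff_bijective.mp hf)
  have hσ' : ∀ x, σ' x = f x := fun x => rfl
  have h1 := hmin σ'
  rw [← sum_add_sum_compl A (fun i => w i (σ i)), ← sum_add_sum_compl A (fun i => w i (σ' i))] at h1
  have h2 : ∑ i ∈ Aᶜ, w i (σ' i) = ∑ i ∈ Aᶜ, w i (σ i) := by
    refine sum_congr rfl fun x hx => ?_
    have hx' : x ∉ A := by simpa using hx
    rw [hσ']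
    simp only [f, if_neg hx']
  have h3 : ∑ i ∈ A, w i (σ' i) = ∑ i ∈ A, w i (τ i) := by
    refine sum_congr rfl fun x hx => ?_
    rw [hσ']
    simp only [f, if_pos hx]
  rw [h2, h3] at h1
  omega

end Vale.Agent.Lib.P333.Rearrange
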