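import Vale.Agent.Lib.P333.Fac

/-!
Every sequence with least period `p` has an unbordered block of length `p` (a Lyndon rotation).
-/

namespace Vale.Agent.Lib.P333

variable {α : Type*} [LinearOrder α]

theorem lex_append_of_length {v w x y : List α} (hl : v.length = w.length)
    (h : List.Lex (· < ·) v w) : List.Lex (· < ·) (v ++ x) (w ++ y) := by
  induction v generalizing w with
  | nil =>
    cases w with
    | nil => exact absurd h (by simp)
    | cons _ _ => simp at hl
  | cons a v ih =>
    cases w with
    | nil => simp at hl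
    | cons b w =>
      simp only [List.length_cons, Nat.add_right_cancel_iff] at hl
      simp only [List.cons_append]
      rw [List.cons_lex_cons_iff] at h ⊢
      rcases h with h | ⟨h1, h2⟩
      · exact Or.inl h
      · exact Or.inr ⟨h1, ih hl h2⟩

omit [LinearOrder α] in
theorem exists_phase {u : ℕ → α} {p : ℕ} (hp0 : 0 < p) (hp : ∀ y, u (y + p) = u y) (x y : ℕ) :
    ∃ i, i < p ∧ ∀ z, u (y + z) = u (x + i + z) := by
  have hxp : x ≤ y + x * p := by nlinarith
  obtain ⟨t, ht⟩ := Nat.exists_eq_add_of_le hxp
  refine ⟨t % p, Nat.mod_lt _ hp0, ?_⟩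
  intro z
  have h1 : u (y + z) = u (y + z + x * p) := (per_mul hp x (y + z)).symm
  have h2 : y + z + x * p = x + t % p + z + (t / p) * p := by
    have := Nat.mod_add_div t p
    have h3 : (t / p) * p = p * (t / p) := Nat.mul_comm _ _
    omega
  rw [h1, h2, per_mul hp]

/-- Rotation minimal block is unbordered. -/
theorem exists_unbordered {u : ℕ → α} {p : ℕ} (hp0 : 0 < p) (hp : ∀ y, u (y + p) = u y)
    (hmin : ∀ d, 0 < d → (∀ y, u (y + d) = u y) → p ≤ d) :
    ∃ x, ∀ d, 0 < d → d < p → ∃ i, i + d < p ∧ u (x + i) ≠ u (x + i + d) := by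
  obtain ⟨x, -, hx⟩ := Finset.exists_min_image (Finset.range p) (fun x => fac u x p)
    ⟨0, Finset.mem_range.mpr hp0⟩
  have hx' : ∀ y, fac u x p ≤ fac u y p := by
    intro y
    have h1 := hx (y % p) (Finset.mem_range.mpr (Nat.mod_lt _ hp0))
    have h2 : fac u (y % p) p = fac u y p := by
      apply fac_ext
      intro i _
      rw [← per_mod hp (y % p + i), ← per_mod hp (y + i)]
      simp [Nat.add_mod]
    simpa [h2] using h1
  refine ⟨x, ?_⟩
  intro d hd0 hdp
  by_contra hcon
  push Not at hcon
  -- `hcon : ∀ i, i + d < p → u (x+i) = u (x+i+d)`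
  obtain ⟨b, hb⟩ : ∃ b, p = b + d := ⟨p - d, by omega⟩
  have hU : fac u (x + d) b = fac u x b := by
    apply fac_ext
    intro i hi
    have := hcon i (by omega)
    rw [this]; congr 1; omega
  -- key x = U V = W U
  have hkey1 : fac u x p = fac u x b ++ fac u (x + b) d := by rw [hb, fac_add]
  have hkey2 : fac u x p = fac u x d ++ fac u x b := by
    rw [hb, Nat.add_comm b d, fac_add, hU]
  -- rotation by d is U W
  have hrd : fac u (x + d) p = fac u x b ++ fac u x d := by
    rw [hb, fac_add, hU]
    congr 1
    apply fac_ext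
    intro i _
    have e : x + d + b + i = x + i + p := by omega
    rw [e, hp]
  -- rotation by b is V U
  have hrb : fac u (x + b) p = fac u (x + b) d ++ fac u x b := by
    rw [hb, Nat.add_comm b d, fac_add]
    congr 1
    apply fac_ext
    intro i _
    have e : x + b + d + i = x + i + (b + d) := by omega
    rw [e, ← hb, hp]
  have hnl : ∀ y, ¬ List.Lex (· < ·) (fac u y p) (fac u x p) := by
    intro y hlex
    exact absurd (hx' y) (not_le.mpr hlex)
  have h1 : ¬ List.Lex (· < ·) (fac u x d) (fac u (x + b) d) := by
    intro h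
    apply hnl (x + d)
    rw [hrd, hkey1]
    exact List.Lex.append_left _ h _
  have h2 : ¬ List.Lex (· < ·) (fac u (x + b) d) (fac u x d) := by
    intro h
    apply hnl (x + b)
    rw [hrb, hkey2]
    exact lex_append_of_length (by simp) h
  have h3 : fac u (x + b) d = fac u x d := by
    rcases (Std.Trichotomous.rel_or_eq_or_rel_swap (r := List.Lex (· < ·))
      (a := fac u (x + b) d) (b := fac u x d)) with h | h | h
    · exact absurd h h2
    · exact h
    · exact absurd h h1
  -- so rotation by d equals the block; hence `d` is a period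
  have hrot : fac u (x + d) p = fac u x p := by
    rw [hrd, hkey1, h3]
  have hper : ∀ y, u (y + d) = u y := by
    intro y
    obtain ⟨i, hi, hyi⟩ := exists_phase hp0 hp x y
    have h6 := (fac_eq_iff.mp hrot) i hi
    have e1 : x + d + i = x + i + d := by omega
    rw [e1] at h6
    rw [hyi d, h6]
    have := hyi 0
    simpa using this.symm
  exact absurd (hmin d hd0 hper) (by omega)

end Vale.Agent.Lib.P333
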