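import Mathlib

/-!
# Word lemma for periodic sequences

Let `Ω` be a finite word and let `u j` be periodic sequences with least periods `π j`, pairwise not
shift-equal.  If every factor of length `o j` of `u j` occurs in `Ω`, then
`∑ j, (o j + 1 - π j) ≤ |Ω|` (truncated subtraction).

The proof counts the cycle rank of the Rauzy graphs of `Ω`: the private edge of `u j` at level `k`
is the window of length `k + 1` that starts at an unbordered rotation.
-/

namespace Vale.Agent.Lib.P333.WordLemma

open Finset

variable {α : Type*}

/-- The window `u[x, x+k)` of a sequence, as a list. -/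
def window (u : ℕ → α) (x k : ℕ) : List α := (List.range k).map (fun t => u (x + t))

@[simp] lemma window_length (u : ℕ → α) (x k : ℕ) : (window u x k).length = k := by
  simp [window]

lemma window_getElem (u : ℕ → α) (x k t : ℕ) (h : t < (window u x k).length) :
    (window u x k)[t] = u (x + t) := by
  simp [window]

lemma window_eq_iff {β : Type*} {u v : ℕ → β} {x y k : ℕ} :
    window u x k = window v y k ↔ ∀ t, t < k → u (x + t) = v (y + t) := by
  constructor
  · intro h t ht
    have h1 : t < (window u x k).length := by simpa using ht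
    have h2 : t < (window v y k).length := by simpa using ht
    have := List.getElem_of_eq h h1
    simpa [window_getElem] using this
  · intro h
    apply List.ext_getElem
    · simp
    · intro t h1 h2
      rw [window_getElem, window_getElem]
      exact h t (by simpa using h1)

lemma window_dropLast (u : ℕ → α) (x k : ℕ) :
    (window u x (k + 1)).dropLast = window u x k := by
  simp [window, List.range_succ]

lemma window_tail (u : ℕ → α) (x k : ℕ) :
    (window u x (k + 1)).tail = window u (x + 1) k := by
  apply List.ext_getElem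
  · simp
  · intro t h1 h2
    simp only [List.getElem_tail]
    rw [window_getElem, window_getElem]
    congr 1
    omega

lemma window_prefix (u : ℕ → α) (x : ℕ) {k o : ℕ} (h : k ≤ o) :
    window u x k <+: window u x o := by
  rw [List.prefix_iff_eq_take]
  apply List.ext_getElem
  · simp [h]
  · intro t h1 h2
    rw [List.getElem_take, window_getElem, window_getElem]

lemma per_mul {u : ℕ → α} {π : ℕ} (hper : ∀ n, u (n + π) = u n) (n m : ℕ) :
    u (n + m * π) = u n := by
  induction m with
  | zero => simp
  | succ m ih =>
    have : n + (m + 1) * π = (n + m * π) + π := by ring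
    rw [this, hper, ih]

lemma per_ext {f g : ℕ → α} {π : ℕ} (hπ : 0 < π) (hf : ∀ n, f (n + π) = f n)
    (hg : ∀ n, g (n + π) = g n) (h : ∀ t, t < π → f t = g t) (t : ℕ) : f t = g t := by
  have ht : t = t % π + (t / π) * π := by
    rw [Nat.add_comm, Nat.mul_comm]
    exact (Nat.div_add_mod t π).symm
  rw [ht, per_mul hf, per_mul hg]
  exact h _ (Nat.mod_lt _ hπ)

/-- Every periodic sequence has an unbordered rotation: the lexicographically least one. -/
lemma exists_unbordered (u : ℕ → α) (π : ℕ) (hπ : 0 < π) (hper : ∀ n, u (n + π) = u n)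
    (hleast : ∀ q, 0 < q → (∀ n, u (n + q) = u n) → π ≤ q) :
    ∃ x, ∀ q, 0 < q → q < π → ∃ t, t + q < π ∧ u (x + t + q) ≠ u (x + t) := by
  classical
  let _ : LinearOrder α := linearOrderOfSTO WellOrderingRel
  let key : ℕ → Lex (Fin π → α) := fun n => toLex (fun t => u (n + t))
  obtain ⟨x, -, hx⟩ := Finset.exists_min_image (Finset.range π) key ⟨0, by simpa using hπ⟩
  have hkey : ∀ n, key x ≤ key n := by
    intro n
    have h1 : key n = key (n % π) := by
      have h2 : ∀ t : Fin π, u (n + t) = u (n % π + t) := by
        intro t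
        have hn : n = n % π + (n / π) * π := by
          rw [Nat.add_comm, Nat.mul_comm]
          exact (Nat.div_add_mod n π).symm
        have : n + (t : ℕ) = (n % π + t) + (n / π) * π := by
          nth_rewrite 1 [hn]
          ring
        rw [this, per_mul hper]
      show toLex (fun t : Fin π => u (n + t)) = toLex (fun t : Fin π => u (n % π + t))
      exact congrArg _ (funext h2)
    rw [h1]
    exact hx _ (by simpa using Nat.mod_lt n hπ)
  refine ⟨x, fun q hq0 hqπ => ?_⟩
  by_contra hcon
  push Not at hcon
  have hex : ∃ t, t < π ∧ u (x + t + q) ≠ u (x + t) := by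
    by_contra hno
    push Not at hno
    have h3 : ∀ t, u (x + t + q) = u (x + t) := by
      apply per_ext (f := fun t => u (x + t + q)) (g := fun t => u (x + t)) hπ
      · intro n
        show u (x + (n + π) + q) = u (x + n + q)
        have : x + (n + π) + q = x + n + q + π := by ring
        rw [this, hper]
      · intro n
        show u (x + (n + π)) = u (x + n)
        have : x + (n + π) = x + n + π := by ring
        rw [this, hper]
      · exact hno
    have h4 : ∀ n, u (n + q) = u n := by
      intro n
      have hle : x ≤ n + x * π := by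
        have : x * 1 ≤ x * π := Nat.mul_le_mul_left _ hπ
        omega
      have e1 : n + q + x * π = x + (n + x * π - x) + q := by omega
      have e2 : n + x * π = x + (n + x * π - x) := by omega
      have h5 := h3 (n + x * π - x)
      rw [← e1, ← e2, per_mul hper, per_mul hper] at h5
      exact h5
    have := hleast q hq0 h4
    omega
  let t0 := Nat.find hex
  have ht0 : t0 < π ∧ u (x + t0 + q) ≠ u (x + t0) := Nat.find_spec hex
  have hmin : ∀ t, t < t0 → u (x + t + q) = u (x + t) := by
    intro t ht
    have h6 := Nat.find_min hex ht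
    push Not at h6
    exact h6 (by have := ht0.1; omega)
  have hge : π ≤ t0 + q := by
    by_contra hlt
    exact ht0.2 (hcon t0 (by omega))
  obtain ⟨r, hr⟩ : ∃ r, t0 + q = r + π := ⟨t0 + q - π, by omega⟩
  have hrq : r < q := by have := ht0.1; omega
  have hrπ : r < π := by omega
  have hval : u (x + t0 + q) = u (x + r) := by
    have : x + t0 + q = x + r + π := by omega
    rw [this, hper]
  -- first comparison
  have hlt1 : u (x + t0) < u (x + r) := by
    rcases lt_or_gt_of_ne ht0.2 with hlt | hgt
    · exfalso
      have hkl : key (x + q) < key x := by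
        refine ⟨⟨t0, ht0.1⟩, fun j hj => ?_, ?_⟩
        · show u (x + q + j) = u (x + j)
          have : x + q + (j : ℕ) = x + j + q := by ring
          rw [this]
          exact hmin j hj
        · show u (x + q + t0) < u (x + t0)
          have : x + q + t0 = x + t0 + q := by ring
          rw [this]
          exact hlt
      exact absurd (hkey (x + q)) (not_le.mpr hkl)
    · rw [hval] at hgt
      exact hgt
  -- second comparison
  have hkl2 : key (x + (π - q)) < key x := by
    refine ⟨⟨r, hrπ⟩, fun j hj => ?_, ?_⟩
    · show u (x + (π - q) + j) = u (x + j)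
      have hj' : (j : ℕ) < r := hj
      have h7 := hmin (π - q + j) (by omega)
      have e1 : x + (π - q + j) + q = x + j + π := by omega
      rw [e1, hper] at h7
      have e2 : x + (π - q) + (j : ℕ) = x + (π - q + j) := by ring
      rw [e2]
      exact h7.symm
    · show u (x + (π - q) + r) < u (x + r)
      have e1 : x + (π - q) + r = x + t0 := by omega
      rw [e1]
      exact hlt1
  exact absurd (hkey (x + (π - q))) (not_le.mpr hkl2)

/-- A connected multigraph on `V` with edge set `R` has `|V| ≤ |R| + 1`. -/
lemma card_le_of_conn {β γ : Type*} (V : Finset β) (R : Finset γ) (a b : γ → β)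
    (ha : ∀ e ∈ R, a e ∈ V) (hb : ∀ e ∈ R, b e ∈ V)
    (hc : ∀ x ∈ V, ∀ y ∈ V, Relation.EqvGen (fun x y => ∃ e ∈ R, a e = x ∧ b e = y) x y) :
    V.card ≤ R.card + 1 := by
  classical
  rcases V.eq_empty_or_nonempty with rfl | hne
  · simp
  let G : SimpleGraph V := SimpleGraph.fromRel (fun x y : V => ∃ e ∈ R, a e = x ∧ b e = y)
  have hstep : ∀ e (he : e ∈ R), G.Reachable ⟨a e, ha e he⟩ ⟨b e, hb e he⟩ := by
    intro e he
    by_cases hab : a e = b e
    · have : (⟨a e, ha e he⟩ : V) = ⟨b e, hb e he⟩ := Subtype.ext hab
      rw [this]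
    · apply SimpleGraph.Adj.reachable
      rw [SimpleGraph.fromRel_adj]
      refine ⟨fun h => hab (congrArg Subtype.val h), Or.inl ⟨e, he, rfl, rfl⟩⟩
  have hreach : ∀ x y, Relation.EqvGen (fun x y => ∃ e ∈ R, a e = x ∧ b e = y) x y →
      (∀ hx : x ∈ V, ∃ hy : y ∈ V, G.Reachable ⟨x, hx⟩ ⟨y, hy⟩) ∧
      (∀ hy : y ∈ V, ∃ hx : x ∈ V, G.Reachable ⟨x, hx⟩ ⟨y, hy⟩) := by
    intro x y h
    induction h with
    | rel x y h =>
      rcases h with ⟨e, he, rfl, rfl⟩
      exact ⟨fun _ => ⟨hb e he, hstep e he⟩, fun _ => ⟨ha e he, hstep e he⟩⟩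
    | refl x => exact ⟨fun hx => ⟨hx, SimpleGraph.Reachable.refl _⟩,
        fun hx => ⟨hx, SimpleGraph.Reachable.refl _⟩⟩
    | symm x y _ ih =>
      refine ⟨fun hy => ?_, fun hx => ?_⟩
      · obtain ⟨hx, h⟩ := ih.2 hy
        exact ⟨hx, h.symm⟩
      · obtain ⟨hy, h⟩ := ih.1 hx
        exact ⟨hy, h.symm⟩
    | trans x y z _ _ ih1 ih2 =>
      refine ⟨fun hx => ?_, fun hz => ?_⟩
      · obtain ⟨hy, h1⟩ := ih1.1 hx
        obtain ⟨hz, h2⟩ := ih2.1 hy
        exact ⟨hz, h1.trans h2⟩
      · obtain ⟨hy, h2⟩ := ih2.2 hz
        obtain ⟨hx, h1⟩ := ih1.2 hy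
        exact ⟨hx, h1.trans h2⟩
  have hconn : G.Connected := by
    have : Nonempty V := ⟨⟨hne.choose, hne.choose_spec⟩⟩
    refine SimpleGraph.Connected.mk ?_
    intro x y
    obtain ⟨hy, h⟩ := (hreach _ _ (hc x.1 x.2 y.1 y.2)).1 x.2
    exact h
  have h1 := hconn.card_vert_le_card_edgeSet_add_one
  have h2 : Nat.card V = V.card := by simp
  let f : {e // e ∈ R} → Sym2 V := fun e => s(⟨a e.1, ha e.1 e.2⟩, ⟨b e.1, hb e.1 e.2⟩)
  have hsub : G.edgeSet ⊆ Set.range f := by
    intro z
    induction z using Sym2.ind with
    | _ v w =>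
      intro hvw
      rw [SimpleGraph.mem_edgeSet, SimpleGraph.fromRel_adj] at hvw
      rcases hvw.2 with ⟨e, he, h1, h2⟩ | ⟨e, he, h1, h2⟩
      · refine ⟨⟨e, he⟩, ?_⟩
        show s(_, _) = s(v, w)
        congr 1 <;> exact Subtype.ext (by assumption)
      · refine ⟨⟨e, he⟩, ?_⟩
        show s(_, _) = s(v, w)
        rw [Sym2.eq_swap]
        congr 1 <;> exact Subtype.ext (by assumption)
  have h3 : Nat.card G.edgeSet ≤ R.card := by
    rw [Nat.card_coe_set_eq]
    calc G.edgeSet.ncard ≤ (Set.range f).ncard := Set.ncard_le_ncard hsub (Set.finite_range f)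
      _ = (f '' Set.univ).ncard := by rw [Set.image_univ]
      _ ≤ (Set.univ : Set {e // e ∈ R}).ncard := Set.ncard_image_le Set.finite_univ
      _ = R.card := by simp [Set.ncard_univ]
  omega

/-- The set of factors of length `k` of `Ω`. -/
def facs [DecidableEq α] (Ω : List α) (k : ℕ) : Finset (List α) :=
  (Finset.range (Ω.length + 1 - k)).image (fun p => (Ω.drop p).take k)

lemma mem_facs [DecidableEq α] {Ω : List α} {k : ℕ} {x : List α} :
    x ∈ facs Ω k ↔ x.length = k ∧ x <:+: Ω := by
  constructor
  · intro h
    obtain ⟨p, hp, rfl⟩ := Finset.mem_image.mp h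
    rw [Finset.mem_range] at hp
    refine ⟨?_, ((List.take_prefix _ _).isInfix).trans (List.drop_suffix _ _).isInfix⟩
    simp only [List.length_take, List.length_drop]
    omega
  · rintro ⟨hk, s, t, rfl⟩
    refine Finset.mem_image.mpr ⟨s.length, ?_, ?_⟩
    · rw [Finset.mem_range]
      simp only [List.length_append]
      omega
    · simp [hk, List.append_assoc]

lemma drop_take_dropLast (Ω : List α) (p k : ℕ) (h : p + k + 1 ≤ Ω.length) :
    ((Ω.drop p).take (k + 1)).dropLast = (Ω.drop p).take k := by
  apply List.ext_getElem
  · simp only [List.length_dropLast, List.length_take, List.length_drop]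
    omega
  · intro t h1 h2
    simp

lemma tail_take_succ (L : List α) (k : ℕ) : (L.take (k + 1)).tail = L.tail.take k := by
  cases L <;> simp

lemma drop_take_tail (Ω : List α) (p k : ℕ) :
    ((Ω.drop p).take (k + 1)).tail = (Ω.drop (p + 1)).take k := by
  rw [tail_take_succ, List.tail_drop]

/-- The cycle rank of the Rauzy graph at level `k` is at least the number of periodic sequences
whose factors of length `k + 1` occur. -/
lemma level [DecidableEq α] {ι : Type*} (J : Finset ι) (Ω : List α) (u : ι → ℕ → α)
    (π : ι → ℕ) (k : ℕ)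
    (hπ : ∀ j ∈ J, 0 < π j) (hper : ∀ j ∈ J, ∀ n, u j (n + π j) = u j n)
    (hleast : ∀ j ∈ J, ∀ q, 0 < q → (∀ n, u j (n + q) = u j n) → π j ≤ q)
    (hshift : ∀ j ∈ J, ∀ l ∈ J, j ≠ l → ∀ s, ¬ ∀ n, u j (n + s) = u l n)
    (hk : ∀ j ∈ J, π j ≤ k + 1)
    (hocc : ∀ j ∈ J, ∀ x, window (u j) x (k + 1) <:+: Ω) :
    J.card + (facs Ω k).card ≤ (facs Ω (k + 1)).card + 1 := by
  classical
  have hub := fun j (hj : j ∈ J) =>
    exists_unbordered (u j) (π j) (hπ j hj) (hper j hj) (hleast j hj)
  choose! x hx using hub
  let e : ι → List α := fun j => window (u j) (x j) (k + 1)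
  have hpriv : ∀ j ∈ J, ∀ l ∈ J, j ≠ l → π l ≤ π j → ∀ m, window (u l) m (k + 1) ≠ e j := by
    intro j hj l hl hjl hle m heq
    have hw : ∀ t, t < k + 1 → u l (m + t) = u j (x j + t) := window_eq_iff.mp heq
    rcases Nat.lt_or_ge (π l) (π j) with hlt | hge
    · obtain ⟨t, ht, hne⟩ := hx j hj (π l) (hπ l hl) hlt
      apply hne
      have hjk := hk j hj
      have h1 := hw (t + π l) (by omega)
      have h2 := hw t (by omega)
      calc u j (x j + t + π l) = u j (x j + (t + π l)) := by rw [Nat.add_assoc]
        _ = u l (m + (t + π l)) := h1.symm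
        _ = u l (m + t + π l) := by rw [Nat.add_assoc]
        _ = u l (m + t) := hper l hl _
        _ = u j (x j + t) := h2
    · have hEq : π l = π j := le_antisymm hle hge
      have hall : ∀ t, u l (m + t) = u j (x j + t) := by
        apply per_ext (f := fun t => u l (m + t)) (g := fun t => u j (x j + t)) (hπ j hj)
        · intro n
          show u l (m + (n + π j)) = u l (m + n)
          rw [← hEq, ← Nat.add_assoc, hper l hl]
        · intro n
          show u j (x j + (n + π j)) = u j (x j + n)
          rw [← Nat.add_assoc, hper j hj]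
        · intro t ht
          exact hw t (by have := hk j hj; omega)
      apply hshift j hj l hl hjl (x j + (m * π l - m))
      intro n
      have hmle : m ≤ m * π l := Nat.le_mul_of_pos_right m (hπ l hl)
      have h3 := hall (n + (m * π l - m))
      have e1 : m + (n + (m * π l - m)) = n + m * π l := by omega
      rw [e1, per_mul (hper l hl)] at h3
      rw [h3]
      congr 1
      omega
  have hemem : ∀ j ∈ J, e j ∈ facs Ω (k + 1) := fun j hj =>
    mem_facs.mpr ⟨by simp [e], hocc j hj _⟩
  have hinj : Set.InjOn e (J : Set ι) := by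
    intro j hj l hl heq
    by_contra hne
    rcases Nat.le_total (π l) (π j) with hle | hle
    · exact hpriv j hj l hl hne hle (x l) heq.symm
    · exact hpriv l hl j hj (Ne.symm hne) hle (x j) heq
  let R := facs Ω (k + 1) \ J.image e
  have hsub : J.image e ⊆ facs Ω (k + 1) := by
    intro z hz
    obtain ⟨j, hj, rfl⟩ := Finset.mem_image.mp hz
    exact hemem j hj
  have hRcard : R.card + J.card = (facs Ω (k + 1)).card := by
    have h1 : (J.image e).card = J.card := Finset.card_image_of_injOn hinj
    have h2 := Finset.card_sdiff_add_card_eq_card hsub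
    rw [h1] at h2
    exact h2
  let r : List α → List α → Prop := fun a b => ∃ z ∈ R, z.dropLast = a ∧ z.tail = b
  have hclaim : ∀ n, ∀ j ∈ J, π j = n →
      Relation.EqvGen r (window (u j) (x j) k) (window (u j) (x j + 1) k) := by
    intro n
    induction n using Nat.strong_induction_on with
    | _ n ih =>
      intro j hj hjn
      have hstep : ∀ t, 0 < t → t < π j →
          Relation.EqvGen r (window (u j) (x j + t) k) (window (u j) (x j + t + 1) k) := by
        intro t ht0 ht
        have hzmem : window (u j) (x j + t) (k + 1) ∈ facs Ω (k + 1) :=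
          mem_facs.mpr ⟨by simp, hocc j hj _⟩
        by_cases hzR : window (u j) (x j + t) (k + 1) ∈ J.image e
        · obtain ⟨l, hl, hlz⟩ := Finset.mem_image.mp hzR
          by_cases hlj : l = j
          · subst hlj
            exfalso
            have hw : ∀ i, i < k + 1 → u l (x l + i) = u l (x l + t + i) :=
              window_eq_iff.mp hlz
            have hall : ∀ i, u l (x l + i) = u l (x l + t + i) := by
              apply per_ext (f := fun i => u l (x l + i)) (g := fun i => u l (x l + t + i))
                (hπ l hl)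
              · intro i
                show u l (x l + (i + π l)) = u l (x l + i)
                rw [← Nat.add_assoc, hper l hl]
              · intro i
                show u l (x l + t + (i + π l)) = u l (x l + t + i)
                rw [← Nat.add_assoc, hper l hl]
              · intro i hi
                exact hw i (by have := hk l hl; omega)
            have hperiod : ∀ m, u l (m + t) = u l m := by
              intro m
              have hle : x l ≤ m + x l * π l := by
                have : x l * 1 ≤ x l * π l := Nat.mul_le_mul_left _ (hπ l hl)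
                omega
              have h5 := hall (m + x l * π l - x l)
              have e1 : x l + (m + x l * π l - x l) = m + x l * π l := by omega
              have e2 : x l + t + (m + x l * π l - x l) = m + t + x l * π l := by omega
              rw [e1, e2, per_mul (hper l hl), per_mul (hper l hl)] at h5
              exact h5.symm
            have := hleast l hl t ht0 hperiod
            omega
          · have hlt : π l < π j := by
              by_contra hge
              push Not at hge
              exact hpriv l hl j hj hlj hge (x j + t) hlz.symm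
            have h0 := ih (π l) (by omega) l hl rfl
            have h1 : window (u l) (x l) k = window (u j) (x j + t) k := by
              rw [← window_dropLast (u l), ← window_dropLast (u j)]
              exact congrArg _ hlz
            have h2 : window (u l) (x l + 1) k = window (u j) (x j + t + 1) k := by
              rw [← window_tail (u l), ← window_tail (u j)]
              exact congrArg _ hlz
            rwa [h1, h2] at h0
        · exact Relation.EqvGen.rel _ _ ⟨_, Finset.mem_sdiff.mpr ⟨hzmem, hzR⟩,
            window_dropLast _ _ _, window_tail _ _ _⟩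
      have hchain : ∀ t, t < π j →
          Relation.EqvGen r (window (u j) (x j + 1) k) (window (u j) (x j + t + 1) k) := by
        intro t
        induction t with
        | zero => intro _; exact Relation.EqvGen.refl _
        | succ t ih' =>
          intro ht
          exact Relation.EqvGen.trans _ _ _ (ih' (by omega)) (hstep (t + 1) (by omega) ht)
      have h4 := hchain (π j - 1) (by have := hπ j hj; omega)
      have h5 : window (u j) (x j + (π j - 1) + 1) k = window (u j) (x j) k := by
        rw [window_eq_iff]
        intro t _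
        have : x j + (π j - 1) + 1 + t = x j + t + π j := by have := hπ j hj; omega
        rw [this, hper j hj]
      rw [h5] at h4
      exact Relation.EqvGen.symm _ _ h4
  have hedge : ∀ z ∈ facs Ω (k + 1), Relation.EqvGen r z.dropLast z.tail := by
    intro z hz
    by_cases hzR : z ∈ J.image e
    · obtain ⟨l, hl, rfl⟩ := Finset.mem_image.mp hzR
      have h0 := hclaim _ l hl rfl
      show Relation.EqvGen r (window (u l) (x l) (k + 1)).dropLast
        (window (u l) (x l) (k + 1)).tail
      rwa [window_dropLast, window_tail]
    · exact Relation.EqvGen.rel _ _ ⟨z, Finset.mem_sdiff.mpr ⟨hz, hzR⟩, rfl, rfl⟩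
  have hwalk : ∀ p, p + k ≤ Ω.length →
      Relation.EqvGen r ((Ω.drop 0).take k) ((Ω.drop p).take k) := by
    intro p
    induction p with
    | zero => intro _; exact Relation.EqvGen.refl _
    | succ p ih =>
      intro hp
      have hz : (Ω.drop p).take (k + 1) ∈ facs Ω (k + 1) := by
        refine mem_facs.mpr ⟨?_, ((List.take_prefix _ _).isInfix).trans
          (List.drop_suffix _ _).isInfix⟩
        simp only [List.length_take, List.length_drop]
        omega
      have h0 := hedge _ hz
      rw [drop_take_dropLast Ω p k (by omega), drop_take_tail] at h0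
      exact Relation.EqvGen.trans _ _ _ (ih (by omega)) h0
  have hV : (facs Ω k).card ≤ R.card + 1 := by
    apply card_le_of_conn (facs Ω k) R List.dropLast List.tail
    · intro z hz
      obtain ⟨hlen, hinf⟩ := mem_facs.mp (Finset.mem_sdiff.mp hz).1
      refine mem_facs.mpr ⟨by simp [hlen], ((List.dropLast_prefix z).isInfix).trans hinf⟩
    · intro z hz
      obtain ⟨hlen, hinf⟩ := mem_facs.mp (Finset.mem_sdiff.mp hz).1
      refine mem_facs.mpr ⟨by simp [hlen], ((List.tail_suffix z).isInfix).trans hinf⟩
    · intro a ha b hb
      obtain ⟨p, hp, rfl⟩ := Finset.mem_image.mp ha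
      obtain ⟨q, hq, rfl⟩ := Finset.mem_image.mp hb
      rw [Finset.mem_range] at hp hq
      exact Relation.EqvGen.trans _ _ _
        (Relation.EqvGen.symm _ _ (hwalk p (by omega))) (hwalk q (by omega))
  omega

/-- **Word lemma.**  Let `u j` be periodic sequences with least periods `π j`, pairwise not
shift-equal.  If all factors of length `o j` of `u j` occur in the word `Ω`, then
`∑ j, (o j + 1 - π j) ≤ |Ω|`, with truncated subtraction. -/
theorem word_lemma [DecidableEq α] {ι : Type*} (J : Finset ι) (Ω : List α) (u : ι → ℕ → α)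
    (π o : ι → ℕ)
    (hπ : ∀ j ∈ J, 0 < π j) (hper : ∀ j ∈ J, ∀ n, u j (n + π j) = u j n)
    (hleast : ∀ j ∈ J, ∀ q, 0 < q → (∀ n, u j (n + q) = u j n) → π j ≤ q)
    (hshift : ∀ j ∈ J, ∀ l ∈ J, j ≠ l → ∀ s, ¬ ∀ n, u j (n + s) = u l n)
    (hocc : ∀ j ∈ J, ∀ x, window (u j) x (o j) <:+: Ω) :
    ∑ j ∈ J, (o j + 1 - π j) ≤ Ω.length := by
  classical
  set N := Ω.length with hN
  let Jk : ℕ → Finset ι := fun k => J.filter (fun j => π j ≤ k + 1 ∧ k + 1 ≤ o j)
  have hlev : ∀ k, (Jk k).card + (facs Ω k).card ≤ (facs Ω (k + 1)).card + 1 := by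
    intro k
    apply level (Jk k) Ω u π k
    · exact fun j hj => hπ j (Finset.mem_filter.mp hj).1
    · exact fun j hj => hper j (Finset.mem_filter.mp hj).1
    · exact fun j hj => hleast j (Finset.mem_filter.mp hj).1
    · exact fun j hj l hl => hshift j (Finset.mem_filter.mp hj).1 l (Finset.mem_filter.mp hl).1
    · exact fun j hj => (Finset.mem_filter.mp hj).2.1
    · intro j hj x
      have hj' := Finset.mem_filter.mp hj
      exact ((window_prefix (u j) x hj'.2.2).isInfix).trans (hocc j hj'.1 x)
  have hsum : ∑ k ∈ Finset.range N, ((Jk k).card + (facs Ω k).card) ≤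
      ∑ k ∈ Finset.range N, ((facs Ω (k + 1)).card + 1) := Finset.sum_le_sum fun k _ => hlev k
  rw [Finset.sum_add_distrib, Finset.sum_add_distrib] at hsum
  have htel : ∑ k ∈ Finset.range N, (facs Ω (k + 1)).card + (facs Ω 0).card =
      ∑ k ∈ Finset.range N, (facs Ω k).card + (facs Ω N).card := by
    rw [← Finset.sum_range_succ, Finset.sum_range_succ']
  have hf0 : 1 ≤ (facs Ω 0).card := by
    apply Finset.card_pos.mpr
    exact ⟨[], mem_facs.mpr ⟨rfl, List.nil_infix⟩⟩
  have hfN : (facs Ω N).card ≤ 1 := by
    apply Finset.card_le_one.mpr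
    intro a ha b hb
    obtain ⟨hla, hia⟩ := mem_facs.mp ha
    obtain ⟨hlb, hib⟩ := mem_facs.mp hb
    have h1 : a = Ω := hia.eq_of_length hla
    have h2 : b = Ω := hib.eq_of_length hlb
    rw [h1, h2]
  have hconst : ∑ _k ∈ Finset.range N, 1 = N := by simp
  have hbound : ∑ k ∈ Finset.range N, (Jk k).card ≤ N := by omega
  have hdouble : ∑ k ∈ Finset.range N, (Jk k).card =
      ∑ j ∈ J, ((Finset.range N).filter (fun k => π j ≤ k + 1 ∧ k + 1 ≤ o j)).card := by
    simp only [Jk, Finset.card_filter]
    rw [Finset.sum_comm]
  refine le_trans (Finset.sum_le_sum fun j hj => ?_) (hdouble ▸ hbound)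
  have hoN : o j ≤ N := by
    have := (hocc j hj 0).length_le
    simpa using this
  have hsubset : Finset.Ico (π j - 1) (o j) ⊆
      (Finset.range N).filter (fun k => π j ≤ k + 1 ∧ k + 1 ≤ o j) := by
    intro k hk
    rw [Finset.mem_Ico] at hk
    rw [Finset.mem_filter, Finset.mem_range]
    have := hπ j hj
    omega
  calc o j + 1 - π j = (Finset.Ico (π j - 1) (o j)).card := by
        rw [Nat.card_Ico]
        have := hπ j hj
        omega
    _ ≤ _ := Finset.card_le_card hsubset

end Vale.Agent.Lib.P333.WordLemma
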